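import Vale.Agent.P333.TCx

/-! The algorithm and its running time. -/

namespace Vale.Agent.P333

open Vale.Agent.Common.TreeTM

abbrev W : Type := List ℕ

def cnt (w : W) (l : List W) : ℕ := l.countP (eqs w)
def tLb (M : List W) (w : W) : Bool := !nlt (cnt w (M.map List.tail)) (cnt w M)
def tRb (M : List W) (w : W) : Bool := !nlt (cnt w (M.map List.dropLast)) (cnt w M)
def fstep (V M : List W) (v : W) (F : List W) : List W :=
  V.filter fun w => eqs w v || (tRb M w.dropLast && mem w.dropLast F) || (tLb M w.tail && mem w.tail F)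
def fset (ix : List ℕ) (V M : List W) (v : W) : List W := ix.foldl (fun F _ => fstep V M v F) []
def gstep (V M F G : List W) : List W :=
  V.filter fun w => eqs w [] || (mem w.tail G && !(tRb M w && mem w F)) ||
    !G.all fun u => !(eqs u.dropLast w && !(tLb M u && mem u F))
def gset (ix : List ℕ) (V M F : List W) : List W := ix.foldl (fun G _ => gstep V M F G) []
def top (V : List W) (s : W) : Bool :=
  V.all fun u => !(isCons u && (eqs u.dropLast s || eqs u.tail s))
def fires (ix : List ℕ) (V M : List W) (v : W) : Bool :=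
  isCons v && (nlt (cnt v M) (cnt v (M.map List.tail)) ||
    nlt (cnt v M) (cnt v (M.map List.dropLast)) ||
    !(V.filter (top V)).all fun s => mem s (gset ix V M (fset ix V M v)))
def mcand (ix : List ℕ) (V M : List W) : List (List W) := (V.filter (fires ix V M)).map fun v => v :: M
def mfin (ix : List ℕ) (V : List W) : List W :=
  (ix.flatMap fun _ => ix).foldl (fun M _ => (mcand ix V M).headD M) []
def df (l m : List W) : List W := m.foldl (fun l a => l.eraseP (eqs a)) l
def arcs (M : List W) : List (W × W) :=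
  ((df M (M.map List.tail)).map fun w => (w.dropLast, w)) ++
    (df M (M.map List.dropLast)).map fun w => (w, w.tail)
abbrev TS : Type := List (List W) × List W × List (W × W)
def ends (K : List W) (e : W × W) : Bool := eqs e.2 (K.headD [])
def tstep (s : TS) : TS :=
  bif isCons (s.2.2.filter (ends s.2.1)) then
    (s.1, ((s.2.2.filter (ends s.2.1)).headD ([], [])).1 :: s.2.1, s.2.2.eraseP (ends s.2.1))
  else (s.2.1 :: s.1, [(s.2.2.headD ([], [])).1, (s.2.2.headD ([], [])).2], s.2.2.tail)
def tfin (E : List (W × W)) : TS := E.foldl (fun s _ => tstep s) ([], [[]], E)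
def trails (E : List (W × W)) : List (List W) := (tfin E).2.1 :: (tfin E).1
def dd (a b : W) : ℕ := ((idx a).filter fun k => pre (a.drop k) b).headD a.length
def rot (K : List W) (t : ℕ) : List W := K.drop t ++ K.take (t + 1)
abbrev MS : Type := List W × List ℕ
def rm (i : ℕ) (l : List ℕ) : List ℕ := l.filter fun x => !neq x i
def c1 (K : List W) (t : ℕ) (b : W) : Bool := nlt (2 * (dd (K.getD t []) b + dd b (K.getD t []))) K.length
def o1 (A : List (List W)) (s : MS) : List MS :=
  s.2.flatMap fun i => (idx (A.getD i [])).flatMap fun t => (idx s.1).flatMap fun j =>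
    bif c1 (A.getD i []) t (s.1.getD j []) then
      [(s.1.take (j + 1) ++ rot (A.getD i []) t ++ s.1.drop j, rm i s.2)] else []
def c2 (K K' : List W) (t t' : ℕ) : Bool :=
  nlt (2 * (dd (K.getD t []) (K'.getD t' []) + (K'.getD t' []).length) + 1) (K.length + K'.length)
def o2 (A : List (List W)) (s : MS) : List MS :=
  s.2.flatMap fun i => (rm i s.2).flatMap fun i' => (idx (A.getD i [])).flatMap fun t =>
    (idx (A.getD i' [])).flatMap fun t' =>
      bif c2 (A.getD i []) (A.getD i' []) t t' then
        [(rot (A.getD i []) t ++ rot (A.getD i' []) t' ++ s.1, rm i' (rm i s.2))] else []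
def merge (A : List (List W)) : MS :=
  A.foldl (fun s _ => (o1 A s ++ o2 A s).headD s) ([[]], idx A)
def glue (z T : W) : W := z.take (dd z T) ++ T
def outp (R : List W) : W := R.reverse.foldl (fun T z => glue z T) []
def infs (S : List W) : List W :=
  [] :: S.flatMap fun s => (idx s).flatMap fun i => (idx s).map fun k => (s.drop i).take (k + 1)
def ixs (S : List W) : List ℕ := 0 :: ((S.flatMap fun s => s) ++ S.flatMap fun s => s)
def alg (S : List W) : W := outp (merge (trails (arcs (mfin (ixs S) (infs S))))).1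

theorem headD_mem {σ : Type} (l : List σ) (x : σ) : l.headD x = x ∨ l.headD x ∈ l := by
  cases l <;> simp

theorem mem_o1 {A : List (List W)} {s x : MS} : x ∈ o1 A s ↔ ∃ i ∈ s.2, ∃ t < (A.getD i []).length,
    ∃ j < s.1.length, c1 (A.getD i []) t (s.1.getD j []) = true ∧
      x = (s.1.take (j + 1) ++ rot (A.getD i []) t ++ s.1.drop j, rm i s.2) := by
  simp only [o1, List.mem_flatMap, idx, List.mem_range]
  refine exists_congr fun i => and_congr_right fun _ => exists_congr fun t =>
    and_congr_right fun _ => exists_congr fun j => and_congr_right fun _ => ?_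
  cases c1 (A.getD i []) t (s.1.getD j []) <;> simp

theorem mem_o2 {A : List (List W)} {s x : MS} : x ∈ o2 A s ↔ ∃ i ∈ s.2, ∃ i' ∈ rm i s.2,
    ∃ t < (A.getD i []).length, ∃ t' < (A.getD i' []).length,
      c2 (A.getD i []) (A.getD i' []) t t' = true ∧
      x = (rot (A.getD i []) t ++ rot (A.getD i' []) t' ++ s.1, rm i' (rm i s.2)) := by
  simp only [o2, List.mem_flatMap, idx, List.mem_range]
  refine exists_congr fun i => and_congr_right fun _ => exists_congr fun i' =>
    and_congr_right fun _ => exists_congr fun t => and_congr_right fun _ => exists_congr fun t' =>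
    and_congr_right fun _ => ?_
  cases c2 (A.getD i []) (A.getD i' []) t t' <;> simp

variable {α : Type} [Enc α] {ix : α → List ℕ} {V M F G K K' : α → List W} {v w : α → W}
  {t t' : α → ℕ} {A : α → List (List W)}

@[fun_prop] theorem tc_cnt (hw : TC 0 w) (hM : TC 0 M) : TC 0 fun a => cnt (w a) (M a) := by
  unfold cnt; fun_prop

@[fun_prop] theorem tc_tLb (hM : TC 0 M) (hw : TC 0 w) : TC 0 fun a => tLb (M a) (w a) := by
  unfold tLb; fun_prop

@[fun_prop] theorem tc_tRb (hM : TC 0 M) (hw : TC 0 w) : TC 0 fun a => tRb (M a) (w a) := by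
  unfold tRb; fun_prop

@[fun_prop] theorem tc_fstep (hV : TC 0 V) (hM : TC 0 M) (hv : TC 0 v) (hF : TC 0 F) :
    TC 0 fun a => fstep (V a) (M a) (v a) (F a) := by unfold fstep; fun_prop

@[fun_prop] theorem tc_fset (hi : TC 0 ix) (hV : TC 0 V) (hM : TC 0 M) (hv : TC 0 v) :
    TC 0 fun a => fset (ix a) (V a) (M a) (v a) :=
  TC.foldl_inv (f := fun a F _ => fstep (V a) (M a) (v a) F) (by fun_prop) (by fun_prop) hi hV.bd
    (fun a _ F => F.Sublist (V a)) (fun _ => List.nil_sublist _)
    (fun _ _ _ _ _ _ => List.filter_sublist) fun _ _ _ _ h => sz_sublist h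

@[fun_prop] theorem tc_gstep (hV : TC 0 V) (hM : TC 0 M) (hF : TC 0 F) (hG : TC 0 G) :
    TC 0 fun a => gstep (V a) (M a) (F a) (G a) := by unfold gstep; fun_prop

@[fun_prop] theorem tc_gset (hi : TC 0 ix) (hV : TC 0 V) (hM : TC 0 M) (hF : TC 0 F) :
    TC 0 fun a => gset (ix a) (V a) (M a) (F a) :=
  TC.foldl_inv (f := fun a G _ => gstep (V a) (M a) (F a) G) (by fun_prop) (by fun_prop) hi hV.bd
    (fun a _ F => F.Sublist (V a)) (fun _ => List.nil_sublist _)
    (fun _ _ _ _ _ _ => List.filter_sublist) fun _ _ _ _ h => sz_sublist h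

@[fun_prop] theorem tc_top (hV : TC 0 V) (hv : TC 0 v) : TC 0 fun a => top (V a) (v a) := by
  unfold top; fun_prop

@[fun_prop] theorem tc_fires (hi : TC 0 ix) (hV : TC 0 V) (hM : TC 0 M) (hv : TC 0 v) :
    TC 0 fun a => fires (ix a) (V a) (M a) (v a) := by unfold fires; fun_prop

@[fun_prop] theorem tc_mcand (hi : TC 0 ix) (hV : TC 0 V) (hM : TC 0 M) :
    TC 0 fun a => mcand (ix a) (V a) (M a) := by unfold mcand; fun_prop

theorem tc_mfin (hi : TC 0 ix) (hV : TC 0 V) : TC 0 fun a => mfin (ix a) (V a) := by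
  refine TC.foldl_grow (f := fun a M _ => (mcand (ix a) (V a) M).headD M) (by fun_prop)
    (by fun_prop) (by fun_prop) (m := fun p => sz (V p.1) + 1)
    ((hV.comp TC.fst').bd.add (Bd.const _ _)) fun a M _ => ?_
  rcases headD_mem (mcand (ix a) (V a) M) M with h | h
  · rw [h]
    omega
  · obtain ⟨v, hv, e⟩ := List.mem_map.1 h
    have := sz_mem (List.mem_filter.1 hv).1
    rw [← e, sz_lcons]
    dsimp only
    omega

@[fun_prop] theorem tc_df (hM : TC 0 M) (hF : TC 0 F) : TC 0 fun a => df (M a) (F a) :=
  TC.foldl_grow (f := fun _ (l : List W) (a : W) => l.eraseP (eqs a)) (by fun_prop) hM hF (m := fun _ => 0)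
    (Bd.const _ _) fun _ _ _ => sz_sublist List.eraseP_sublist

theorem tc_arcs (hM : TC 0 M) : TC 0 fun a => arcs (M a) := by unfold arcs; fun_prop

@[fun_prop] theorem tc_ends {e : α → W × W} (hK : TC 0 K) (he : TC 0 e) :
    TC 0 fun a => ends (K a) (e a) := by unfold ends; fun_prop

theorem tc_tstep : TC 0 tstep := by unfold tstep; fun_prop

theorem sz_tstep (s : TS) : sz (tstep s) ≤ sz s + 10 := by
  obtain ⟨D, K, E⟩ := s
  unfold tstep
  cases h : E.filter (ends K) with
  | nil =>
    cases E with
    | nil => simp only [isCons, List.isEmpty_nil, Bool.not_true, Bool.cond_false, sz_pair,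
        sz_lcons, sz_lnil, List.headD_nil, List.tail_nil]; omega
    | cons e E => simp only [isCons, List.isEmpty_nil, Bool.not_true, Bool.cond_false, sz_pair,
        sz_lcons, sz_lnil, List.headD_cons, List.tail_cons, sz_prod e]; omega
  | cons e E' =>
    have he : e ∈ E.filter (ends K) := by simp [h]
    obtain ⟨a, l1, l2, a1, a2, a3, a4⟩ := List.exists_of_eraseP (List.mem_filter.1 he).1
      (List.mem_filter.1 he).2
    have : a = e := by
      rw [a3, List.filter_append, List.filter_eq_nil_iff.2 a1, List.filter_cons_of_pos a2] at h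
      exact (List.cons.inj h).1
    subst this
    have := sz_append l1 l2
    have := sz_append l1 (a :: l2)
    simp only [h, isCons, List.isEmpty_cons, Bool.not_false, Bool.cond_true, sz_pair, sz_lcons,
      List.headD_cons, a4, ← a3, sz_prod a] at *
    omega

theorem tc_trails {E : α → List (W × W)} (hE : TC 0 E) : TC 0 fun a => trails (E a) := by
  have h : TC 0 fun a => tfin (E a) :=
    TC.foldl_grow (f := fun _ s _ => tstep s) (tc_tstep.comp (by fun_prop)) (by fun_prop) hE
      (m := fun _ => 10) (Bd.const _ _) fun _ s _ => sz_tstep s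
  unfold trails
  fun_prop

@[fun_prop] theorem tc_dd (hv : TC 0 v) (hw : TC 0 w) : TC 0 fun a => dd (v a) (w a) := by
  unfold dd; fun_prop

@[fun_prop] theorem tc_rot (hK : TC 0 K) (ht : TC 0 t) : TC 0 fun a => rot (K a) (t a) := by
  unfold rot; fun_prop

@[fun_prop] theorem tc_rm (ht : TC 0 t) (hi : TC 0 ix) : TC 0 fun a => rm (t a) (ix a) := by
  unfold rm; fun_prop

@[fun_prop] theorem tc_c1 (hK : TC 0 K) (ht : TC 0 t) (hv : TC 0 v) :
    TC 0 fun a => c1 (K a) (t a) (v a) := by unfold c1; fun_prop

@[fun_prop] theorem tc_c2 (hK : TC 0 K) (hK' : TC 0 K') (ht : TC 0 t) (ht' : TC 0 t') :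
    TC 0 fun a => c2 (K a) (K' a) (t a) (t' a) := by unfold c2; fun_prop

@[fun_prop] theorem tc_o1 {s : α → MS} (hA : TC 0 A) (hs : TC 0 s) :
    TC 0 fun a => o1 (A a) (s a) := by unfold o1; fun_prop

@[fun_prop] theorem tc_o2 {s : α → MS} (hA : TC 0 A) (hs : TC 0 s) :
    TC 0 fun a => o2 (A a) (s a) := by unfold o2; fun_prop

theorem getD_mem {σ : Type} (l : List σ) (i : ℕ) (x : σ) : l.getD i x = x ∨ l.getD i x ∈ l := by
  by_cases h : i < l.length
  · exact Or.inr (List.getD_eq_getElem _ _ h ▸ List.getElem_mem h)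
  · exact Or.inl (List.getD_eq_default _ _ (not_lt.1 h))

theorem rot_bd (A : List (List W)) (i t : ℕ) : (rot (A.getD i []) t).length ≤ 2 * sz A ∧
    ∀ z ∈ rot (A.getD i []) t, sz z ≤ sz A := by
  have h : sz (A.getD i []) ≤ sz A := by
    rcases getD_mem A i [] with h | h
    · rw [h]
      exact one_le_sz A
    · exact sz_mem h
  have := length_le_sz (A.getD i [])
  refine ⟨by simp only [rot, List.length_append, List.length_drop, List.length_take]; omega,
    fun z hz => (sz_mem ?_).trans h⟩
  rcases List.mem_append.1 hz with h | h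
  · exact List.mem_of_mem_drop h
  · exact List.mem_of_mem_take h

theorem tc_merge (hA : TC 0 A) : TC 0 fun a => merge (A a) := by
  have hi := TC.idx hA
  refine TC.foldl_inv (f := fun a s _ => (o1 (A a) s ++ o2 (A a) s).headD s) (by fun_prop)
    (by fun_prop) hA
    (S := fun a => (1 + sz (A a) * (4 * sz (A a) + 1)) * (sz (A a) + 1) + 1 + sz (idx (A a)) + 1)
    ((((((Bd.const _ _).add (hA.bd.mul (((Bd.const _ _).mul hA.bd).add (Bd.const _ _)))).mul
      (hA.bd.add (Bd.const _ _))).add (Bd.const _ _)).add hi.bd).add (Bd.const _ _))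
    (fun a k s => s.1.length ≤ 1 + k * (4 * sz (A a) + 1) ∧ (∀ z ∈ s.1, sz z ≤ sz (A a)) ∧
      s.2.Sublist (idx (A a)))
    (fun a => ⟨by simp, by simpa [sz_lnil] using one_le_sz (A a), List.Sublist.refl _⟩)
    (fun a k s _ _ h => ?_) fun a k s hk h => ?_
  · rw [Nat.succ_mul]
    rcases headD_mem (o1 (A a) s ++ o2 (A a) s) s with e | e
    · rw [e]
      exact ⟨by omega, h.2⟩
    · generalize (o1 (A a) s ++ o2 (A a) s).headD s = x at e
      rcases List.mem_append.1 e with e | e
      · obtain ⟨i, -, t, -, j, hj, -, rfl⟩ := mem_o1.1 e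
        obtain ⟨r1, r2⟩ := rot_bd (A a) i t
        refine ⟨by simp only [List.length_append, List.length_drop, List.length_take]; omega,
          fun z hz => ?_, List.filter_sublist.trans h.2.2⟩
        simp only [List.mem_append] at hz
        rcases hz with (hz | hz) | hz
        · exact h.2.1 z (List.mem_of_mem_take hz)
        · exact r2 z hz
        · exact h.2.1 z (List.mem_of_mem_drop hz)
      · obtain ⟨i, -, i', -, t, -, t', -, -, rfl⟩ := mem_o2.1 e
        obtain ⟨r1, r2⟩ := rot_bd (A a) i t
        obtain ⟨r3, r4⟩ := rot_bd (A a) i' t'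
        refine ⟨by simp only [List.length_append]; omega,
          fun z hz => ?_, List.filter_sublist.trans (List.filter_sublist.trans h.2.2)⟩
        simp only [List.mem_append] at hz
        rcases hz with (hz | hz) | hz
        · exact r2 z hz
        · exact r4 z hz
        · exact h.2.1 z hz
  · have h1 := sz_sublist h.2.2
    have h2 := (sz_list_le h.2.1).trans (Nat.add_le_add_right (Nat.mul_le_mul_right _ (h.1.trans
      (Nat.add_le_add_left (Nat.mul_le_mul_right _ (hk.trans (length_le_sz _))) _))) _)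
    rw [sz_prod]
    omega

theorem tc_outp (hM : TC 0 M) : TC 0 fun a => outp (M a) :=
  TC.foldl_grow (f := fun _ T z => glue z T) (by unfold glue; fun_prop) (by fun_prop) (by fun_prop)
    (m := fun p => sz p) (Bd.sz 0) fun a T z => by
      have := sz_append (z.take (dd z T)) T
      have := sz_sublist (List.take_sublist (dd z T) z)
      rw [sz_pair, glue]
      omega

theorem tc_alg : TC 0 alg :=
  tc_outp (TC.fst (tc_merge (tc_trails (tc_arcs (tc_mfin (by unfold ixs; fun_prop)
    (by unfold infs; fun_prop))))))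

end Vale.Agent.P333
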