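import Vale.Agent.P333.Seg

/-! The combinatorial core: if no merging step applies, some string is forced. -/

namespace Vale.Agent.P333

inductive Forces (tL tR : List ℕ → Prop) (v : List ℕ) : List ℕ → Prop
  | refl : Forces tL tR v v
  | up {w : List ℕ} : tR w.dropLast → Forces tL tR v w.dropLast → Forces tL tR v w
  | left {w : List ℕ} : tL w.tail → Forces tL tR v w.tail → Forces tL tR v w

structure Stuck {ι : Type} (V R tL tR : List ℕ → Prop) (q : ι → ℤ) (P : ι → List ℕ → Prop) :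
    Prop where
  inf : ∀ u w, u <:+: w → V w → V u
  bdd : ∃ N : ℕ, ∀ w, V w → w.length ≤ N
  nil : R []
  RV : ∀ w, R w → V w
  PV : ∀ K a, P K a → V a
  no1 : ∀ K a r (k l : ℕ), P K a → R r → a.drop k <+: r → r.drop l <+: a → q K < k + l
  no2 : ∀ K K' a a', K ≠ K' → P K a → P K' a' → a' <:+ a → q K + q K' < a.length
  h1 : ∀ w, V w → w ≠ [] → ¬ tL w →
    R w.dropLast ∨ ∃ K ω b j, St (q K) (P K) ω b ∧ w = seg ω (b (j - 1)) j
  h2 : ∀ w, V w → w ≠ [] → ¬ tR w →
    R w ∨ ∃ K ω b i j, St (q K) (P K) ω b ∧ b (j - 1) ≤ i ∧ i < b j ∧ w = seg ω i j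

def Good (R : List ℕ → Prop) (w : List ℕ) : Prop :=
  ¬ R w.dropLast ∧ ¬ R w.tail ∧ ¬ R w.dropLast.tail

def AllV (v : List ℕ) (ω : ℤ → ℕ) (b : ℤ → ℤ) : Prop :=
  ∀ i j, b (j - 1) ≤ i → i ≤ b j → v <:+: seg ω i j

variable {ι : Type} {V R tL tR : List ℕ → Prop} {q : ι → ℤ} {P : ι → List ℕ → Prop}
  {K K' : ι} {ω ω' : ℤ → ℕ} {b b' : ℤ → ℤ} {i j i0 j0 : ℤ} {v : List ℕ}

theorem Stuck.long (H : Stuck V R tL tR q P) (h : St (q K) (P K) ω b) (h1 : b (j - 1) ≤ i)
    (h2 : i ≤ b j) : q K < j - i := by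
  have := H.no1 K _ [] (seg ω i j).length 0 (h.mem i j h1 h2) H.nil (by simp) List.nil_prefix
  have := h.pos
  rw [seg_length] at *
  omega

theorem Stuck.near (H : Stuck V R tL tR q P) (h : St (q K) (P K) ω b) (h1 : b (j0 - 1) ≤ i0)
    (h2 : i0 ≤ b j0) (a1 : i0 ≤ i) (a2 : i ≤ i0 + q K) (a3 : j0 ≤ j) (a4 : j ≤ j0 + q K) :
    ¬ R (seg ω i j) := fun hR => by
  have := H.no1 K _ _ (i - i0).toNat (i0 + q K - i).toNat (h.mem i0 j0 h1 h2) hR
    (by
      rw [seg_drop, show i0 + ((i - i0).toNat : ℤ) = i by omega]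
      exact seg_pre a3)
    (by
      rw [seg_drop, show i + ((i0 + q K - i).toNat : ℤ) = i0 + 1 * q K by omega,
        ← seg_per (i := i0) h.per 1]
      exact seg_pre (by omega))
  omega

theorem Stuck.align (H : Stuck V R tL tR q P) (h : St (q K) (P K) ω b) (h' : St (q K') (P K') ω' b')
    (e : seg ω i j = seg ω' i j) (h1 : i ≤ b j) (h2 : i ≤ b' j) : ω = ω' := by
  have m : b (j - 1) ≤ b j := h.mono (by omega)
  have m' : b' (j - 1) ≤ b' j := h'.mono (by omega)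
  by_cases hK : K = K'
  · subst hK
    have := H.long h m le_rfl
    exact per_eq h.pos h.per h'.per i fun x h1 h2 => seg_agree e x h1 (by omega)
  · have p := h.pos
    have p' := h'.pos
    have : q K + q K' < j - i := by
      rcases le_total (b j) (b' j) with h3 | h3
      · have := H.no2 K K' _ _ hK (h.mem _ j m le_rfl) (h'.mem _ j m' le_rfl) (by
          rw [← seg_congr (ω := ω) fun x h4 h5 => seg_agree e x (by omega) h5]
          exact seg_suf h3)
        rw [seg_length] at this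
        omega
      · have := H.no2 K' K _ _ (Ne.symm hK) (h'.mem _ j m' le_rfl) (h.mem _ j m le_rfl) (by
          rw [seg_congr (ω := ω) (ω' := ω') fun x h4 h5 => seg_agree e x (by omega) h5]
          exact seg_suf h3)
        rw [seg_length] at this
        omega
    exact per_eq2 p p' h.per h'.per i fun x h1 h2 => seg_agree e x h1 (by omega)

theorem Stuck.allV (H : Stuck V R tL tR q P) (h : St (q K) (P K) ω b) (h1 : b (j0 - 1) ≤ i0)
    (hv : v <:+: seg ω i0 j0) (h0 : v ≠ []) (hg : ¬ Good R v) : AllV v ω b := by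
  intro iz jz z1 z2
  obtain ⟨i, j, a1, a2, a3, rfl⟩ := inf_seg hv h0
  have p := h.pos
  obtain ⟨k, k1, k2⟩ : ∃ k, iz + k * q K ≤ i ∧ i < iz + k * q K + q K := by
    refine ⟨(i - iz) / q K, ?_⟩
    have h1 := Int.emod_add_mul_ediv (i - iz) (q K)
    have h2 := Int.emod_nonneg (i - iz) p.ne'
    have h3 := Int.emod_lt_of_pos (i - iz) p
    rw [mul_comm] at h1
    omega
  rw [← seg_per (i := iz) h.per k]
  have b1 := h.bmul k jz
  have b2 := h.bmul k (jz - 1)
  rw [show jz - 1 + k * q K = jz + k * q K - 1 by ring] at b2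
  generalize k * q K = m at *
  refine seg_inf k1 (not_lt.1 fun h3 => hg ?_)
  have h4 : j0 ≤ jz + m + q K := not_lt.1 fun h4 => by
    have := h.mono (show jz + m + q K ≤ j0 - 1 by omega)
    have := h.bper (jz + m)
    omega
  have hn : ∀ x y, iz + m ≤ x → x ≤ iz + m + q K → jz + m ≤ y → y ≤ jz + m + q K →
      ¬ R (seg ω x y) := fun x y => H.near h (by omega) (by omega)
  simp only [Good, seg_dropLast, seg_tail]
  exact ⟨hn _ _ (by omega) (by omega) (by omega) (by omega),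
    hn _ _ (by omega) (by omega) (by omega) (by omega),
    hn _ _ (by omega) (by omega) (by omega) (by omega)⟩

theorem Stuck.up (H : Stuck V R tL tR q P) (hV : V (seg ω i j)) (h0 : i < j)
    (h : ¬ tL (seg ω i j)) (hR : ¬ R (seg ω i (j - 1))) :
    ∃ K ω' b', St (q K) (P K) ω' b' ∧ seg ω' i j = seg ω i j ∧ b' (j - 1) = i := by
  obtain h1 | ⟨K, ω', b', j', h1, h2⟩ := H.h1 _ hV (seg_ne_nil h0) h
  · exact absurd (seg_dropLast ▸ h1) hR
  · have h3 := congrArg List.length h2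
    simp only [seg_length] at h3
    refine ⟨K, _, _, h1.shift (j' - j), ?_, ?_⟩
    · rw [seg_shift, h2]
      congr 1 <;> omega
    · rw [show j - 1 + (j' - j) = j' - 1 by ring]
      omega

theorem Stuck.down (H : Stuck V R tL tR q P) (hV : V (seg ω i j)) (h0 : i < j)
    (h : ¬ tR (seg ω i j)) (hR : ¬ R (seg ω i j)) :
    ∃ K ω' b', St (q K) (P K) ω' b' ∧ seg ω' i j = seg ω i j ∧ b' (j - 1) ≤ i ∧ i < b' j := by
  obtain h1 | ⟨K, ω', b', i', j', h1, a1, a2, h2⟩ := H.h2 _ hV (seg_ne_nil h0) h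
  · exact absurd h1 hR
  · have h3 := congrArg List.length h2
    simp only [seg_length] at h3
    refine ⟨K, _, _, h1.shift (j' - j), ?_, ?_, ?_⟩
    · rw [seg_shift, h2]
      congr 1 <;> omega
    · rw [show j - 1 + (j' - j) = j' - 1 by ring]
      omega
    · rw [show j + (j' - j) = j' by ring]
      omega

/-- A staircase all of whose vertices contain `v`, carrying the factor at `(i, j)`, and with
`(a, c)` above it. -/
def Pl (q : ι → ℤ) (P : ι → List ℕ → Prop) (v : List ℕ) (ω : ℤ → ℕ) (i j a c : ℤ) : Prop :=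
  ∃ K ω' b', St (q K) (P K) ω' b' ∧ AllV v ω' b' ∧ seg ω' i j = seg ω i j ∧ a ≤ b' c

theorem lt_of_inf (hv : v <:+: seg ω i j) (h0 : v ≠ []) : i < j := not_le.1 fun h => by
  rw [seg_nil h] at hv
  exact h0 (List.infix_nil.1 hv)

theorem Stuck.sideP (H : Stuck V R tL tR q P) (h0 : v ≠ []) (hg : ¬ Good R v) (hV : V (seg ω i j))
    (hv : v <:+: seg ω i j) (hR : ¬ R (seg ω i j))
    (ih : ¬ Forces tL tR v (seg ω i j) → Pl q P v ω i j (i + 1) (j - 1))
    (h : ¬ (tR (seg ω i j) ∧ Forces tL tR v (seg ω i j))) : Pl q P v ω i j (i + 1) j := by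
  by_cases h1 : tR (seg ω i j)
  · obtain ⟨K, ω', b', a1, a2, a3, a4⟩ := ih fun h2 => h ⟨h1, h2⟩
    exact ⟨K, ω', b', a1, a2, a3, a4.trans (a1.mono (by omega))⟩
  · obtain ⟨K, ω', b', a1, a2, a3, a4⟩ := H.down hV (lt_of_inf hv h0) h1 hR
    exact ⟨K, ω', b', a1, H.allV a1 a3 (a2 ▸ hv) h0 hg, a2, a4⟩

theorem Stuck.sideS (H : Stuck V R tL tR q P) (h0 : v ≠ []) (hg : ¬ Good R v) (hV : V (seg ω i j))
    (hv : v <:+: seg ω i j) (hR : ¬ R (seg ω i (j - 1)))
    (ih : ¬ Forces tL tR v (seg ω i j) → Pl q P v ω i j (i + 1) (j - 1))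
    (h : ¬ (tL (seg ω i j) ∧ Forces tL tR v (seg ω i j))) : Pl q P v ω i j i (j - 1) := by
  by_cases h1 : tL (seg ω i j)
  · obtain ⟨K, ω', b', a1, a2, a3, a4⟩ := ih fun h2 => h ⟨h1, h2⟩
    exact ⟨K, ω', b', a1, a2, a3, by omega⟩
  · obtain ⟨K, ω', b', a1, a2, a3⟩ := H.up hV (lt_of_inf hv h0) h1 hR
    exact ⟨K, ω', b', a1, H.allV a1 a3.le (a2 ▸ hv) h0 hg, a2, a3.ge⟩

theorem Stuck.lemA (H : Stuck V R tL tR q P) (h0 : v ≠ []) (hg : ¬ Good R v) (hV : V (seg ω i0 j0))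
    (hm : ∀ u, u <:+: seg ω i0 j0 → v.length < u.length → Good R u) (n : ℕ) :
    ∀ i j : ℤ, j - i ≤ n → i0 ≤ i → j ≤ j0 → v <:+: seg ω i j → ¬ Forces tL tR v (seg ω i j) →
      Pl q P v ω i j (i + 1) (j - 1) := by
  induction n with
  | zero =>
    intro i j h1 _ _ hv _
    have := lt_of_inf hv h0
    omega
  | succ n ih =>
    intro i j h1 h2 h3 hv hF
    have hne : v ≠ seg ω i j := fun e => hF (e ▸ Forces.refl)
    have hlt : v.length < (seg ω i j).length := lt_of_le_of_ne hv.length_le fun e =>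
      hne (hv.eq_of_length e)
    obtain ⟨g1, -, g3⟩ := hm _ (seg_inf h2 h3) hlt
    simp only [seg_dropLast, seg_tail] at g1 g3
    have hP : v <:+: seg ω i (j - 1) → Pl q P v ω i (j - 1) (i + 1) (j - 1) := fun h =>
      H.sideP h0 hg (H.inf _ _ (seg_inf h2 (by omega)) hV) h g1
        (ih _ _ (by omega) h2 (by omega) h) fun h4 => hF (.up (seg_dropLast ▸ h4.1)
          (seg_dropLast ▸ h4.2))
    have hS : v <:+: seg ω (i + 1) j → Pl q P v ω (i + 1) j (i + 1) (j - 1) := fun h =>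
      H.sideS h0 hg (H.inf _ _ (seg_inf (by omega) h3) hV) h g3
        (ih _ _ (by omega) (by omega) h3 h) fun h4 => hF (.left (seg_tail ▸ h4.1) (seg_tail ▸ h4.2))
    have hmid : v <:+: seg ω (i + 1) (j - 1) := by
      obtain ⟨i', j', a1, a2, a3, e⟩ := inf_seg hv h0
      rw [e, seg_length, seg_length] at hlt
      by_cases h4 : j' ≤ j - 1
      · obtain ⟨K, ω', b', b1, b2, b3, b4⟩ := hP (e ▸ seg_inf a1 h4)
        rw [← seg_congr (ω := ω') fun x x1 x2 => seg_agree b3 x (by omega) x2]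
        exact (b2 _ (j - 1) (b1.mono (by omega)) le_rfl).trans (seg_inf b4 le_rfl)
      · obtain ⟨K, ω', b', b1, b2, b3, b4⟩ := hS (e ▸ seg_inf (by omega) a3)
        rw [← seg_congr (ω := ω') fun x x1 x2 => seg_agree b3 x x1 (by omega)]
        exact (b2 _ (j - 1) (b1.mono (by omega)) le_rfl).trans (seg_inf b4 le_rfl)
    obtain ⟨K, ω1, b1, a1, a2, a3, a4⟩ := hP (hmid.trans (seg_inf (by omega) le_rfl))
    obtain ⟨K', ω2, b2, c1, c2, c3, c4⟩ := hS (hmid.trans (seg_inf le_rfl (by omega)))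
    have hl := lt_of_inf hmid h0
    obtain rfl : ω1 = ω2 := H.align a1 c1 (seg_congr fun x x1 x2 =>
      (seg_agree a3 x (by omega) x2).trans (seg_agree c3 x x1 (by omega)).symm) a4 c4
    refine ⟨K, ω1, b1, a1, a2, seg_congr fun x x1 x2 => ?_, a4⟩
    by_cases h4 : x < j - 1
    · exact seg_agree a3 x x1 h4
    · exact seg_agree c3 x (by omega) x2

theorem Stuck.core (H : Stuck V R tL tR q P) (h : St (q K) (P K) ω b) (h1 : b (j0 - 1) ≤ i0)
    (h2 : i0 ≤ b j0) (top : ¬ V (seg ω (i0 - 1) j0)) :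
    ∃ v, v ≠ [] ∧ V v ∧ ∃ Y : List ℕ → Prop, Y (seg ω i0 j0) ∧ ¬ Y [] ∧
      (∀ y, Y y → ¬ Y y.tail → tR y ∧ Forces tL tR v y) ∧
      ∀ y c, Y y → V (y ++ [c]) → ¬ Y (y ++ [c]) →
        tL (y ++ [c]) ∧ Forces tL tR v (y ++ [c]) := by
  let Fr : (ℤ → ℤ) → Prop := fun b => (∃ K, St (q K) (P K) ω b) ∧ ∀ i j, i ≤ b j → ¬ R (seg ω i j)
  have f0 : Fr b := by
    refine ⟨⟨K, h⟩, fun i j hij hR => ?_⟩
    have p := h.pos
    obtain ⟨k, k1, k2⟩ : ∃ k, j0 + k * q K ≤ j ∧ j < j0 + k * q K + q K := by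
      refine ⟨(j - j0) / q K, ?_⟩
      have h1 := Int.emod_add_mul_ediv (j - j0) (q K)
      have h2 := Int.emod_nonneg (j - j0) p.ne'
      have h3 := Int.emod_lt_of_pos (j - j0) p
      rw [mul_comm] at h1
      omega
    rw [← seg_per h.per k] at top
    have b1 := h.bmul k j0
    have b2 := h.bmul k (j0 - 1)
    have b3 := h.bper (j0 - 1 + k * q K)
    have b4 := h.mono (show j ≤ j0 - 1 + k * q K + q K by omega)
    rw [show j0 - 1 + k * q K = j0 + k * q K - 1 by ring] at b2 b3 b4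
    generalize k * q K = m at *
    refine H.near h (i0 := i0 + m) (j0 := j0 + m) (by omega) (by omega)
      (not_lt.1 fun h3 => top (H.inf _ _ (seg_inf (by omega) k1) (H.RV _ hR))) (by omega) k1
      (by omega) hR
  have hB : ∀ j, ∃ i, (∃ b, Fr b ∧ b j = i) ∧ ∀ z, (∃ b, Fr b ∧ b j = z) → z ≤ i := fun j =>
    Int.exists_greatest_of_bdd ⟨j, by
      rintro _ ⟨b, ⟨⟨K, h⟩, -⟩, rfl⟩
      have := H.long h (h.mono (show j - 1 ≤ j by omega)) le_rfl
      have := h.pos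
      omega⟩ ⟨_, b, f0, rfl⟩
  choose B B1 B2 using hB
  have B3 : ∀ b j, Fr b → b j ≤ B j := fun b j hb => B2 j _ ⟨b, hb, rfl⟩
  have BR : ∀ i j, i ≤ B j → ¬ R (seg ω i j) := fun i j hij => by
    obtain ⟨b, hb, e⟩ := B1 j
    exact hb.2 i j (e ▸ hij)
  have BV : ∀ j, V (seg ω (B j) j) := fun j => by
    obtain ⟨b, ⟨⟨K, h⟩, -⟩, e⟩ := B1 j
    exact H.PV K _ (e ▸ h.mem _ j (h.mono (by omega)) le_rfl)
  have Bl : ∀ j, B j < j := fun j => not_le.1 fun h => BR _ j le_rfl (seg_nil h ▸ H.nil)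
  have Bm : ∀ j, B j ≤ B (j + 1) := fun j => by
    obtain ⟨b, hb, e⟩ := B1 j
    obtain ⟨K, h⟩ := hb.1
    exact e ▸ (h.mono (by omega)).trans (B3 b _ hb)
  obtain ⟨N, hN⟩ := H.bdd
  obtain ⟨_, ⟨v, ⟨h0, hg, js, hs⟩, rfl⟩, hm⟩ := Int.exists_greatest_of_bdd
    (P := fun n => ∃ u : List ℕ, (u ≠ [] ∧ ¬ Good R u ∧ ∃ j, u <:+: seg ω (B j) j) ∧ u.length = n)
    ⟨N, by
      rintro _ ⟨u, ⟨-, -, j, h⟩, rfl⟩
      exact_mod_cast hN _ (H.inf _ _ h (BV j))⟩
    ⟨_, seg ω (B 0) (B 0 + 1), ⟨seg_ne_nil (by omega), fun h => h.1 (by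
      rw [seg_dropLast, seg_nil (by omega)]
      exact H.nil), 0, seg_inf le_rfl (Bl 0)⟩, rfl⟩
  have hm' : ∀ j u, u <:+: seg ω (B j) j → v.length < u.length → Good R u := fun j u h1 h2 =>
    by_contra fun h3 => by
      have := hm _ ⟨u, ⟨List.ne_nil_of_length_pos (by omega), h3, j, h1⟩, rfl⟩
      omega
  have hv : ∀ j, v <:+: seg ω (B j) j := fun j => by
    obtain ⟨b, hb, e⟩ := B1 j
    obtain ⟨K, h⟩ := hb.1
    exact e ▸ H.allV h (h.mono (by omega)) (hs.trans (seg_inf (B3 b js hb) le_rfl)) h0 hg _ j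
      (h.mono (by omega)) le_rfl
  have hD : ∀ j, tR (seg ω (B j) j) ∧ Forces tL tR v (seg ω (B j) j) := fun j => by_contra fun h3 => by
    obtain ⟨K', ω', b', a1, a2, a3, a4⟩ := H.sideP h0 hg (BV j) (hv j) (BR _ j le_rfl)
      (H.lemA h0 hg (BV j) (hm' j) (j - B j).toNat _ _ (by omega) le_rfl le_rfl (hv j)) h3
    obtain ⟨b, ⟨⟨K, h⟩, -⟩, e⟩ := B1 j
    obtain rfl : ω' = ω := H.align a1 h a3 (by omega) e.ge
    have := B3 b' j ⟨⟨K', a1⟩, fun i' j' h4 h5 => by
      have h6 : B j' < i' := not_le.1 fun h6 => BR _ _ h6 h5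
      have h7 := (a2 _ j' (a1.mono (by omega)) le_rfl)
      have h8 := lt_of_inf h7 h0
      have h9 := h7.length_le
      have := (hm' j' (seg ω' (i' - 1) j') (seg_inf (by omega) le_rfl) (by
        rw [seg_length] at *
        omega)).2.1
      rw [seg_tail, sub_add_cancel] at this
      exact this h5⟩
    omega
  have hE : ∀ j c, c ≠ ω j → ∀ n : ℕ, V (seg ω (B j - n) j ++ [c]) →
      tL (seg ω (B j - n) j ++ [c]) ∧ Forces tL tR v (seg ω (B j - n) j ++ [c]) := by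
    intro j c hc n
    have hl := Bl j
    have hL : ∀ i, i ≤ B j → V (seg ω i j ++ [c]) → tL (seg ω i j ++ [c]) := fun i hi hV =>
      by_contra fun h3 => by
        have e1 : seg (Function.update ω j c) i j = seg ω i j :=
          seg_congr fun x _ hx => Function.update_of_ne hx.ne _ _
        have e : seg ω i j ++ [c] = seg (Function.update ω j c) i (j + 1) := by
          rw [seg_snoc (by omega), e1, Function.update_self]
        rw [e] at hV h3
        obtain ⟨K', ω', b', a1, a2, a3⟩ := H.up hV (by omega) h3 (by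
          rw [add_sub_cancel_right, e1]
          exact BR _ _ hi)
        obtain ⟨b, ⟨⟨K, h⟩, -⟩, e⟩ := B1 j
        rw [add_sub_cancel_right] at a3
        obtain rfl : ω' = ω := H.align a1 h (seg_congr fun x x1 x2 =>
          (seg_agree a2 x x1 (by omega)).trans (Function.update_of_ne x2.ne _ _)) a3.ge (by omega)
        have := seg_agree a2 j (by omega) (by omega)
        rw [Function.update_self] at this
        exact hc this.symm
    induction n with
    | zero =>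
      intro hV
      simp only [Nat.cast_zero, sub_zero] at hV ⊢
      exact ⟨hL _ le_rfl hV, .up (by simpa using (hD j).1) (by simpa using (hD j).2)⟩
    | succ n ih =>
      intro hV
      have e : (seg ω (B j - (n + 1 : ℕ)) j ++ [c]).tail = seg ω (B j - n) j ++ [c] := by
        rw [List.tail_append_of_ne_nil (seg_ne_nil (by omega)), seg_tail]
        congr 2
        omega
      have := ih (e ▸ H.inf _ _ (List.tail_suffix _).isInfix hV)
      exact ⟨hL _ (by omega) hV, .left (e ▸ this.1) (e ▸ this.2)⟩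
  refine ⟨v, h0, H.inf _ _ hs (BV js), fun y => ∃ i j, i ≤ B j ∧ y = seg ω i j,
    ⟨i0, j0, h2.trans (B3 b j0 f0), rfl⟩, fun ⟨i, j, h1, h2⟩ => BR i j h1 (h2 ▸ H.nil), ?_, ?_⟩
  · rintro _ ⟨i, j, hi, rfl⟩ h3
    obtain rfl : i = B j := le_antisymm hi (not_lt.1 fun h4 => h3 ⟨i + 1, j, h4, seg_tail⟩)
    exact hD j
  · rintro _ c ⟨i, j, hi, rfl⟩ h3 h4
    have hl := Bl j
    have := hE j c (fun e => h4 ⟨i, j + 1, hi.trans (Bm j), by rw [seg_snoc (by omega), e]⟩)
      (B j - i).toNat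
    rw [show B j - ((B j - i).toNat : ℤ) = i by omega] at this
    exact this h3

end Vale.Agent.P333
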