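import Mathlib.Computability.TuringMachine.Computable
import Mathlib.Data.Nat.Bits

namespace Vale.Agent.P333

/-- Self-delimiting binary codes of bits, lists and naturals (in binary). -/
def encBool (b : Bool) : List Bool := if b then [true, false, false] else [false]

def encList {α : Type} (f : α → List Bool) (l : List α) : List Bool :=
  l.flatMap (fun a => true :: f a) ++ [false]

def encNat (n : ℕ) : List Bool := encList encBool n.bits

end Vale.Agent.P333
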