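import Vale.Agent.P333.Merge
import Vale.Agent.P333.Defs

/-! Correctness of the algorithm, and the machine. -/

namespace Vale.Agent.P333

open Vale.Agent.Common.TreeTM Turing

theorem St.imp {q : ℤ} {P P' : W → Prop} {ω : ℤ → ℕ} {b : ℤ → ℤ} (h : St q P ω b)
    (h' : ∀ w, P w → P' w) : St q P' ω b :=
  ⟨h.pos, h.per, h.mono, h.bper, fun i j h1 h2 => h' _ (h.mem i j h1 h2)⟩

theorem stuck {V M : List W} {A : List (List W)} {N L : ℕ} {s : MS}
    (hV : ∀ u w, u <:+: w → w ∈ V → u ∈ V) (hL : ∀ w ∈ V, w.length ≤ L)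
    (hA : ∀ K ∈ A, Walk V K ∧ K.getLastD [] = K.headD [])
    (hl : ∀ w, ¬ tL M w → ∃ K ∈ A, [w.dropLast, w] <:+: K)
    (hr : ∀ w, ¬ tR M w → ∃ K ∈ A, [w, w.tail] <:+: K)
    (h : MI V A N s) (h0 : o1 A s ++ o2 A s = []) :
    Stuck (· ∈ V) (· ∈ s.1) (tL M) (tR M) (fun i : ℕ => (((A.getD i []).length : ℤ) - 1) / 2)
      fun i a => i ∈ s.2 ∧ a ∈ A.getD i [] := by
  have hK : ∀ i < A.length, A.getD i [] ∈ A :=
    fun i hi => List.getD_eq_getElem _ _ hi ▸ List.getElem_mem _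
  have hg : ∀ {K : List W} {a : W}, a ∈ K → ∃ t < K.length, K.getD t [] = a := fun h => by
    obtain ⟨t, ht, e⟩ := List.getElem_of_mem h
    exact ⟨t, ht, by rw [List.getD_eq_getElem _ _ ht, e]⟩
  have hs : ∀ K ∈ A, ∀ x y, [x, y] <:+: K → x ∈ s.1 ∨ ∃ i ω b, St ((((A.getD i []).length : ℤ) - 1) / 2)
      (fun a => i ∈ s.2 ∧ a ∈ A.getD i []) ω b ∧
      (∀ w, w ≠ [] → [w.dropLast, w] <:+: K → ∃ j, w = seg ω (b (j - 1)) j) ∧
      ∀ w, w ≠ [] → [w, w.tail] <:+: K → ∃ i j, b (j - 1) ≤ i ∧ i < b j ∧ w = seg ω i j := by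
    intro K hK x y hxy
    obtain ⟨i, hi, e⟩ := List.getElem_of_mem hK
    rw [← List.getD_eq_getElem _ [] hi] at e
    by_cases h1 : i ∈ s.2
    · obtain ⟨q, ω, b, a1, a2, a3⟩ := (hA K hK).1.stair (hA K hK).2 hxy.length_le
      refine Or.inr ⟨i, ω, b, ?_, a3⟩
      rw [e, show ((K.length : ℤ) - 1) / 2 = q by omega]
      exact a2.imp fun w hw => ⟨h1, hw⟩
    · exact Or.inl (h.done i hi h1 x (e ▸ hxy.subset List.mem_cons_self))
  obtain ⟨n1, n2⟩ := List.append_eq_nil_iff.1 h0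
  refine ⟨hV, ⟨L, hL⟩, by obtain ⟨r, hr⟩ := h.last; simp [hr], h.memV,
    fun i a ha => (hA _ (hK i (h.lt i ha.1))).1.2.2.1 a ha.2, fun i a r k l ha hr h1 h2 => ?_,
    fun i i' a a' hi ha ha' h1 => ?_, fun w _ hw h1 => ?_, fun w _ hw h1 => ?_⟩
  · obtain ⟨t, ht, rfl⟩ := hg ha.2
    obtain ⟨j, hj, rfl⟩ := hg hr
    refine not_le.1 fun h3 => List.eq_nil_iff_forall_not_mem.1 n1 _
      (mem_o1.2 ⟨i, ha.1, t, ht, j, hj, ?_, rfl⟩)
    have := (dd_spec _ _).2.2 k h1
    have := (dd_spec _ _).2.2 l h2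
    simp only [c1, nlt, decide_eq_true_eq]
    omega
  · obtain ⟨t, ht, e⟩ := hg ha.2
    obtain ⟨t', ht', e'⟩ := hg ha'.2
    refine not_le.1 fun h3 => List.eq_nil_iff_forall_not_mem.1 n2 _
      (mem_o2.2 ⟨i, ha.1, i', mem_rm.2 ⟨ha'.1, hi.symm⟩, t, ht, t', ht', ?_, rfl⟩)
    have := (dd_spec a a').2.2 (a.length - a'.length) (by
      rw [← List.suffix_iff_eq_drop.1 h1])
    have := h1.length_le
    simp only [c2, nlt, decide_eq_true_eq, e, e']
    omega
  · obtain ⟨K, a1, a2⟩ := hl w h1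
    refine (hs K a1 _ _ a2).imp_right fun ⟨i, ω, b, b1, b2, _⟩ => ?_
    obtain ⟨j, hj⟩ := b2 w hw a2
    exact ⟨i, ω, b, j, b1, hj⟩
  · obtain ⟨K, a1, a2⟩ := hr w h1
    refine (hs K a1 _ _ a2).imp_right fun ⟨i, ω, b, b1, _, b2⟩ => ?_
    obtain ⟨i', j, hj⟩ := b2 w hw a2
    exact ⟨i, ω, b, i', j, b1, hj⟩

theorem gset_out {ix : List ℕ} {V M F : List W} {Y : W → Prop} (h0 : ¬ Y [])
    (h1 : ∀ y ∈ V, Y y → ¬ Y y.tail → tR M y ∧ y ∈ F)
    (h2 : ∀ u ∈ V, u ≠ [] → Y u.dropLast → ¬ Y u → tL M u ∧ u ∈ F) :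
    ∀ w ∈ gset ix V M F, ¬ Y w := by
  rw [gset, List.foldl_const]
  suffices ∀ w ∈ (gstep V M F)^[ix.length] [], w ∈ V ∧ ¬ Y w from fun w hw => (this w hw).2
  induction ix.length with
  | zero => simp
  | succ k ih =>
    intro w hw
    rw [Function.iterate_succ_apply', mem_gstep] at hw
    refine ⟨hw.1, fun hY => ?_⟩
    rcases hw.2 with rfl | h | ⟨u, hu, rfl, h⟩
    · exact h0 hY
    · exact h.2 (h1 w hw.1 hY (ih _ h.1).2)
    · exact h (h2 u (ih u hu).1 (by rintro rfl; exact h0 hY) hY (ih u hu).2)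

theorem top_mem {ι : Type} {ix : List ℕ} {V M : List W} {R : W → Prop} {q : ι → ℤ}
    {P : ι → W → Prop} (H : Stuck (· ∈ V) R (tL M) (tR M) q P) (hL : ∀ w ∈ V, w.length ≤ ix.length)
    (hf : ∀ v ∈ V, ¬ fires ix V M v = true) {s : W} (hs : s ∈ V) (ht : top V s = true) : R s := by
  refine by_contra fun hR => ?_
  have hG : ∀ v ∈ V, v ≠ [] → s ∈ gset ix V M (fset ix V M v) := fun v hv h0 => by_contra fun h =>
    hf v hv (fires_iff.2 ⟨h0, Or.inr (Or.inr ⟨s, hs, ht, h⟩)⟩)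
  have h0 : s ≠ [] := fun e => hR (e ▸ H.nil)
  have h1 : ¬ tR M s := fun h => gset_out (Y := (· = s)) h0.symm
    (fun y _ e _ => by rw [e]; exact ⟨h, fset_complete H.inf h0 .refl hs (hL s hs)⟩)
    (fun u hu h1 e => absurd e (top_iff.1 ht u hu h1).1) s (hG s hs h0) rfl
  obtain ⟨K, ω, b, i, j, a1, a2, a3, rfl⟩ := (H.h2 s hs h0 h1).resolve_left hR
  have hij := lt_of_inf List.infix_rfl h0
  obtain ⟨v, v1, v2, Y, y1, y2, y3, y4⟩ := H.core a1 a2 a3.le fun h =>
    (top_iff.1 ht _ h (seg_ne_nil (by omega))).2 (by rw [seg_tail, sub_add_cancel])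
  refine gset_out y2 (fun y hy c1 c2 => (y3 y c1 c2).imp_right fun h =>
    fset_complete H.inf v1 h hy (hL y hy)) (fun u hu c0 c1 c2 => ?_) _ (hG v v2 v1) y1
  have := y4 _ (u.getLast c0) c1
  rw [List.dropLast_append_getLast] at this
  exact (this hu c2).imp_right fun h => fset_complete H.inf v1 h hu (hL u hu)

theorem exists_top {V : List W} {L : ℕ} (hL : ∀ w ∈ V, w.length ≤ L) (n : ℕ) :
    ∀ w ∈ V, L ≤ w.length + n → ∃ s ∈ V, top V s = true ∧ w <:+: s := by
  induction n with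
  | zero =>
    refine fun w hw h => ⟨w, hw, top_iff.2 fun u hu h0 => ?_, List.infix_rfl⟩
    have := hL u hu
    have := List.length_pos_iff.2 h0
    constructor <;> rintro rfl <;> simp only [List.length_dropLast, List.length_tail] at h <;> omega
  | succ n ih =>
    intro w hw h
    by_cases ht : top V w = true
    · exact ⟨w, hw, ht, List.infix_rfl⟩
    · simp only [top_iff, not_forall, not_and_or, not_not] at ht
      obtain ⟨u, hu, h0, h1⟩ := ht
      have := List.length_pos_iff.2 h0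
      obtain ⟨s, a1, a2, a3⟩ := ih u hu (by
        rcases h1 with rfl | rfl <;> simp only [List.length_dropLast, List.length_tail] at h <;> omega)
      refine ⟨s, a1, a2, List.IsInfix.trans ?_ a3⟩
      rcases h1 with rfl | rfl
      · exact (List.dropLast_prefix u).isInfix
      · exact (List.tail_suffix u).isInfix

theorem mem_infs {S : List W} {w : W} : w ∈ infs S ↔ w = [] ∨ ∃ s ∈ S, w <:+: s := by
  simp only [infs, List.mem_cons, List.mem_flatMap, List.mem_map, idx, List.mem_range]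
  constructor
  · rintro (h | ⟨s, hs, i, -, k, -, rfl⟩)
    · exact Or.inl h
    · exact Or.inr ⟨s, hs, (List.take_prefix _ _).isInfix.trans (List.drop_suffix _ _).isInfix⟩
  · rintro (h | ⟨_, hs, a, b, rfl⟩)
    · exact Or.inl h
    · by_cases h : w = []
      · exact Or.inl h
      · have := List.length_pos_iff.2 h
        refine Or.inr ⟨_, hs, a.length, by simp; omega, w.length - 1, by simp; omega, ?_⟩
        rw [show w.length - 1 + 1 = w.length by omega]
        simp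

theorem alg_spec (S : List W) : (∀ s ∈ S, s <:+: alg S) ∧
    ∀ T : W, (∀ s ∈ S, s <:+: T) → (alg S).length ≤ 2 * T.length := by
  have hV : ∀ u w, u <:+: w → w ∈ infs S → u ∈ infs S := fun u w h hw => mem_infs.2 <| by
    rcases mem_infs.1 hw with rfl | ⟨s, hs, h1⟩
    · exact Or.inl (List.infix_nil.1 h)
    · exact Or.inr ⟨s, hs, h.trans h1⟩
  have hT : ∀ T : W, (∀ s ∈ S, s <:+: T) → ∀ w ∈ infs S, w <:+: T := fun T h w hw => by
    rcases mem_infs.1 hw with rfl | ⟨s, hs, h1⟩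
    · exact List.nil_infix
    · exact h1.trans (h s hs)
  have h0 : ∀ s ∈ S, s <:+: S.flatMap fun s => s := fun s hs => by
    rw [List.flatMap_id']
    exact List.infix_of_mem_flatten hs
  have hix : (ixs S).length = 2 * (S.flatMap fun s => s).length + 1 := by
    rw [ixs, List.length_cons, List.length_append, two_mul]
  have hL : ∀ w ∈ infs S, w.length ≤ (ixs S).length := fun w hw => by
    have := (hT _ h0 w hw).length_le
    omega
  obtain ⟨m1, m2, m3⟩ := mfin_spec (ix := ixs S) hV (hT _ h0) (by omega)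
  obtain ⟨e1, e2, e3, e4, e5⟩ := arcs_spec hV m1 fun w hw h =>
    ⟨not_lt.1 fun h1 => m2 w hw (fires_iff.2 ⟨h, Or.inl h1⟩),
      not_lt.1 fun h1 => m2 w hw (fires_iff.2 ⟨h, Or.inr (Or.inl h1)⟩)⟩
  obtain ⟨t1, t2, t3⟩ := trails_spec List.mem_cons_self e1 e4
  obtain ⟨g1, g2⟩ := merge_spec List.mem_cons_self t1
  have H := stuck hV hL t1 (fun w hw => t2 _ (e2 w hw)) (fun w hw => t2 _ (e3 w hw)) g1 g2
  obtain ⟨r, hr⟩ := g1.last
  obtain ⟨-, o2, o3⟩ := outp_spec r
  rw [← hr] at o2 o3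
  have key : ∀ T : W, (∀ s ∈ S, s <:+: T) → T.length ≤ (S.flatMap fun s => s).length →
      (alg S).length ≤ 2 * T.length := fun T h1 h2 => by
    have := m3 T (hT T h1) (by omega)
    have := g1.cost
    unfold alg
    omega
  refine ⟨fun s hs => ?_, fun T h => ?_⟩
  · obtain ⟨z, z1, z2, z3⟩ := exists_top hL (ixs S).length s (mem_infs.2 (Or.inr ⟨s, hs, List.infix_rfl⟩))
      (by omega)
    exact z3.trans (o3 z (top_mem H hL m2 z1 z2))
  · rcases le_total T.length (S.flatMap fun s => s).length with h1 | h1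
    · exact key T h h1
    · exact (key _ h0 le_rfl).trans (by omega)

theorem e_bool (b : Bool) : encBool b = (Enc.enc b).enc := by cases b <;> rfl

theorem e_nat (n : ℕ) : encNat n = (Enc.enc n).enc := enc_list _ e_bool n.bits

theorem alg_poly : ∃ tm : TM2ComputableInPolyTime (encList (encList encNat)) (encList encNat) alg,
    ∀ k, Finite (tm.tm.Γ k) := by
  obtain ⟨C, tm, h1, h2⟩ := tc_alg.toTM (encList (encList encNat)) (encList encNat) alg id
    (fun S => enc_list _ (enc_list _ e_nat) S) fun S => enc_list _ e_nat _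
  refine ⟨⟨tm.toTM2ComputableAux, (2 * Polynomial.X + 2) ^ C, fun a =>
    ⟨(tm.outputsFun a).toEvalsTo, (tm.outputsFun a).steps_le_m.trans ((h2 _).trans ?_)⟩⟩, h1⟩
  generalize (encList (encList encNat) a).length = L
  simp only [Polynomial.eval_pow, Polynomial.eval_add, Polynomial.eval_mul, Polynomial.eval_ofNat,
    Polynomial.eval_X, zero_add, pow_one]
  rw [mul_comm, pow_mul]
  refine Nat.pow_le_pow_left ?_ _
  rcases Nat.eq_zero_or_pos L with rfl | h
  · simp
  · have := Nat.pow_log_le_self 2 h.ne'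
    rw [pow_succ]
    omega

end Vale.Agent.P333
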