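import Vale.Agent.P333.Trail

/-! Merging the closed trails. -/

namespace Vale.Agent.P333

open Vale.Agent.Common.TreeTM

theorem dd_spec (a b : W) : dd a b ≤ a.length ∧ a.drop (dd a b) <+: b ∧
    ∀ k, a.drop k <+: b → dd a b ≤ k := by
  have hm : ∀ k, k ∈ ((idx a).filter fun k => pre (a.drop k) b) ↔ k < a.length ∧ a.drop k <+: b :=
    fun k => by simp [idx, pre]
  have hs : ((idx a).filter fun k => pre (a.drop k) b).Pairwise (· < ·) :=
    List.pairwise_lt_range.filter _
  unfold dd
  generalize ((idx a).filter fun k => pre (a.drop k) b) = l at *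
  cases l with
  | nil => exact ⟨le_rfl, by simp, fun k hk => not_lt.1 fun h => by simpa using (hm k).2 ⟨h, hk⟩⟩
  | cons x l =>
    have := (hm x).1 List.mem_cons_self
    refine ⟨this.1.le, this.2, fun k hk => not_lt.1 fun (h : k < x) => ?_⟩
    rcases List.mem_cons.1 ((hm k).2 ⟨by omega, hk⟩) with h1 | h1
    · omega
    · have := List.rel_of_pairwise_cons hs h1
      omega

theorem dd_self (a : W) : dd a a = 0 := Nat.le_zero.1 ((dd_spec a a).2.2 0 List.prefix_rfl)

def cst : List W → ℕ
  | a :: b :: l => dd a b + cst (b :: l)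
  | _ => 0

theorem cst_app {l1 l2 : List W} (h1 : l1 ≠ []) (h2 : l2 ≠ []) :
    cst (l1 ++ l2) = cst l1 + dd (l1.getLastD []) (l2.headD []) + cst l2 := by
  obtain ⟨a, l1, rfl⟩ := List.exists_cons_of_ne_nil h1
  obtain ⟨b, l2, rfl⟩ := List.exists_cons_of_ne_nil h2
  clear h1 h2
  induction l1 generalizing a with
  | nil => simp [cst]
  | cons c l ih =>
    have := ih c
    simp only [List.cons_append, cst, List.getLastD_cons] at this ⊢
    omega

theorem cst_split (l1 l2 : List W) (a : W) : cst (l1 ++ a :: l2) = cst (l1 ++ [a]) + cst (a :: l2) := by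
  by_cases h : l1 = []
  · simp [h, cst]
  · rw [cst_app h (by simp), cst_app h (by simp)]
    simp [cst]

theorem cst_walk (a : W) (K : List W) (h : (a :: K).IsChain Step) :
    2 * cst (a :: K) + (K.getLastD a).length ≤ K.length + a.length := by
  induction K generalizing a with
  | nil => simp [cst]
  | cons b K ih =>
    obtain ⟨h1, h2⟩ := List.isChain_cons_cons.1 h
    have := ih b h2
    rw [cst, List.getLastD_cons, List.length_cons]
    rcases h1.len with ⟨h3, h4⟩ | ⟨h3, h4⟩
    · have := (dd_spec a b).2.2 0 (h4 ▸ List.dropLast_prefix b)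
      omega
    · have := (dd_spec a b).2.2 1 (by rw [h4, List.drop_one])
      omega

theorem split_at (K : List W) {t : ℕ} (h : t < K.length) : ∃ l1 l2, K = l1 ++ K.getD t [] :: l2 ∧
    K.take (t + 1) = l1 ++ [K.getD t []] ∧ K.drop t = K.getD t [] :: l2 := by
  rw [List.getD_eq_getElem _ _ h]
  exact ⟨K.take t, K.drop (t + 1), by simp, List.take_succ_eq_append_getElem h,
    List.drop_eq_getElem_cons h⟩

theorem lastD_app (l1 : List W) {l2 : List W} (h : l2 ≠ []) :
    (l1 ++ l2).getLastD [] = l2.getLastD [] := by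
  rw [List.getLastD_eq_getLast?, List.getLast?_append_of_ne_nil _ h, ← List.getLastD_eq_getLast?]

theorem rot_spec {V K : List W} (h : Walk V K) (hc : K.getLastD [] = K.headD []) {t : ℕ}
    (ht : t < K.length) : rot K t ≠ [] ∧ (rot K t).headD [] = K.getD t [] ∧
      (rot K t).getLastD [] = K.getD t [] ∧ 2 * cst (rot K t) + 1 ≤ K.length ∧
      ∀ z, z ∈ rot K t ↔ z ∈ K := by
  have h1 : 2 * cst K + 1 ≤ K.length := by
    obtain ⟨a, K, rfl⟩ := List.exists_cons_of_ne_nil h.1
    have := cst_walk a K h.2.1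
    rw [List.getLastD_cons, List.headD_cons] at hc
    rw [hc] at this
    rw [List.length_cons]
    omega
  obtain ⟨l1, l2, e, e1, e2⟩ := split_at K ht
  rw [rot, e1, e2]
  generalize K.getD t [] = a at *
  subst e
  refine ⟨by simp, rfl, by rw [lastD_app _ (by simp), List.getLastD_concat], ?_,
    fun z => by simp; tauto⟩
  have h2 : (a :: l2).getLastD [] = (l1 ++ [a]).headD [] := by
    rw [lastD_app _ (by simp)] at hc
    rw [hc]
    cases l1 <;> rfl
  rw [cst_app (by simp) (by simp), h2, dd_self]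
  rw [cst_split] at h1
  omega

theorem mem_rm {i x : ℕ} {l : List ℕ} : x ∈ rm i l ↔ x ∈ l ∧ x ≠ i := by simp [rm, neq]

theorem rm_sum (f : ℕ → ℕ) {i : ℕ} {l : List ℕ} (h : i ∈ l) :
    ((rm i l).map f).sum + f i ≤ (l.map f).sum := by
  obtain ⟨l1, l2, rfl⟩ := List.append_of_mem h
  have h1 : ∀ l, ((rm i l).map f).sum ≤ (l.map f).sum := fun l =>
    (List.filter_sublist.map f).sum_le_sum fun _ _ => Nat.zero_le _
  have := h1 l1
  have := h1 l2
  simp only [rm, neq, List.filter_append, List.filter_cons, decide_true, Bool.not_true,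
    Bool.false_eq_true, if_false, List.map_append, List.map_cons, List.sum_append,
    List.sum_cons] at *
  omega

theorem rm_len {i : ℕ} {l : List ℕ} (h : i ∈ l) : (rm i l).length < l.length := by
  simpa using rm_sum (fun _ => 1) h

structure MI (V : List W) (A : List (List W)) (N : ℕ) (s : MS) : Prop where
  last : ∃ r, s.1 = r ++ [[]]
  memV : ∀ z ∈ s.1, z ∈ V
  lt : ∀ i ∈ s.2, i < A.length
  done : ∀ i < A.length, i ∉ s.2 → ∀ z ∈ A.getD i [], z ∈ s.1
  cost : cst s.1 + (s.2.map fun i => (A.getD i []).length - 1).sum ≤ N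

theorem MI.step {V : List W} {A : List (List W)} {N : ℕ}
    (hA : ∀ K ∈ A, Walk V K ∧ K.getLastD [] = K.headD []) (s : MS) (h : MI V A N s) (x : MS)
    (hx : x ∈ o1 A s ++ o2 A s) : MI V A N x ∧ x.2.length < s.2.length := by
  have hK : ∀ i ∈ s.2, Walk V (A.getD i []) ∧ (A.getD i []).getLastD [] = (A.getD i []).headD [] :=
    fun i hi => hA _ (List.getD_eq_getElem _ _ (h.lt i hi) ▸ List.getElem_mem _)
  obtain ⟨r, hr⟩ := h.last
  have hc := h.cost
  rcases List.mem_append.1 hx with hx | hx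
  · obtain ⟨i, hi, t, ht, j, hj, c, rfl⟩ := mem_o1.1 hx
    obtain ⟨r1, r2, r3, r4, r5⟩ := rot_spec (hK i hi).1 (hK i hi).2 ht
    obtain ⟨l1, l2, e, e1, e2⟩ := split_at s.1 hj
    have hm : ∀ z, z ∈ s.1.take (j + 1) ++ rot (A.getD i []) t ++ s.1.drop j ↔
        z ∈ s.1 ∨ z ∈ A.getD i [] := fun z => by
      rw [e1, e2, List.mem_append, List.mem_append, r5]
      conv_rhs => rw [e]
      simp only [List.mem_append, List.mem_cons, List.not_mem_nil]
      tauto
    refine ⟨⟨⟨s.1.take (j + 1) ++ rot (A.getD i []) t ++ r.drop j, ?_⟩, fun z hz => ?_,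
      fun k hk => h.lt k (mem_rm.1 hk).1, fun k hk h1 z hz => (hm z).2 ?_, ?_⟩, rm_len hi⟩
    · rw [hr, List.length_append] at hj
      rw [List.append_assoc _ _ [[]], ← List.drop_append_of_le_length (Nat.le_of_lt_succ hj), ← hr]
    · exact ((hm z).1 hz).elim (h.memV z) ((hK i hi).1.2.2.1 z)
    · by_cases h2 : k = i
      · exact Or.inr (h2 ▸ hz)
      · exact Or.inl (h.done k hk (fun h3 => h1 (mem_rm.2 ⟨h3, h2⟩)) z hz)
    · have := rm_sum (fun i => (A.getD i []).length - 1) hi
      rw [e, cst_split] at hc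
      simp only [c1, nlt, decide_eq_true_eq] at c
      dsimp only
      rw [e1, e2, cst_app (by simp) (by simp), cst_app (by simp) r1, r2,
        List.getLastD_concat, List.headD_cons, lastD_app _ r1, r3]
      omega
  · obtain ⟨i, hi, i', hi', t, ht, t', ht', c, rfl⟩ := mem_o2.1 hx
    have hi2 := (mem_rm.1 hi').1
    obtain ⟨r1, r2, r3, r4, r5⟩ := rot_spec (hK i hi).1 (hK i hi).2 ht
    obtain ⟨p1, p2, p3, p4, p5⟩ := rot_spec (hK i' hi2).1 (hK i' hi2).2 ht'
    have hm : ∀ z, z ∈ rot (A.getD i []) t ++ rot (A.getD i' []) t' ++ s.1 ↔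
        (z ∈ A.getD i [] ∨ z ∈ A.getD i' []) ∨ z ∈ s.1 := fun z => by
      rw [List.mem_append, List.mem_append, r5, p5]
    refine ⟨⟨⟨rot (A.getD i []) t ++ rot (A.getD i' []) t' ++ r, ?_⟩, fun z hz => ?_,
      fun k hk => h.lt k (mem_rm.1 (mem_rm.1 hk).1).1, fun k hk h1 z hz => (hm z).2 ?_, ?_⟩,
      (rm_len hi').trans (rm_len hi)⟩
    · rw [List.append_assoc _ _ [[]], ← hr]
    · exact ((hm z).1 hz).elim (fun h => h.elim ((hK i hi).1.2.2.1 z) ((hK i' hi2).1.2.2.1 z))
        (h.memV z)
    · by_cases h2 : k = i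
      · exact Or.inl (Or.inl (h2 ▸ hz))
      · by_cases h3 : k = i'
        · exact Or.inl (Or.inr (h3 ▸ hz))
        · exact Or.inr (h.done k hk (fun h4 => h1 (mem_rm.2 ⟨mem_rm.2 ⟨h4, h2⟩, h3⟩)) z hz)
    · have := rm_sum (fun i => (A.getD i []).length - 1) hi
      have := rm_sum (fun i => (A.getD i []).length - 1) hi'
      have := (dd_spec ((A.getD i' []).getD t' []) (s.1.headD [])).1
      simp only [c2, nlt, decide_eq_true_eq] at c
      dsimp only
      rw [cst_app (List.append_ne_nil_of_left_ne_nil r1 _) (by simp [hr]), cst_app r1 p1, r3, p2,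
        lastD_app _ p1, p3]
      omega

theorem merge_spec {V : List W} {A : List (List W)} (h0 : [] ∈ V)
    (hA : ∀ K ∈ A, Walk V K ∧ K.getLastD [] = K.headD []) :
    MI V A (A.map fun K => K.length - 1).sum (merge A) ∧ o1 A (merge A) ++ o2 A (merge A) = [] := by
  refine fold_stop (fun s => o1 A s ++ o2 A s) (MI V A _) (fun s => s.2.length) (MI.step hA) A _
    ⟨⟨[], rfl⟩, by simpa using h0, by simp [idx], fun i hi h => absurd (List.mem_range.2 hi) h, ?_⟩
    (by simp [idx])
  have : (idx A).map (fun i => (A.getD i []).length - 1) = A.map fun K => K.length - 1 :=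
    List.ext_getElem (by simp [idx]) fun i h1 h2 => by
      rw [List.length_map] at h2
      simp [idx, h2]
  simp only [this, cst, zero_add, le_refl]

theorem outp_spec (r : List W) : (r ++ [[]]).headD [] <+: outp (r ++ [[]]) ∧
    (outp (r ++ [[]])).length ≤ cst (r ++ [[]]) ∧ ∀ z ∈ r ++ [[]], z <:+: outp (r ++ [[]]) := by
  simp only [outp, List.foldl_reverse]
  induction r with
  | nil => simp [glue]
  | cons a r ih =>
    rw [List.cons_append, List.foldr_cons]
    obtain ⟨b, l, e⟩ := List.exists_cons_of_ne_nil (show r ++ [[]] ≠ [] by simp)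
    rw [e] at ih ⊢
    generalize List.foldr (fun x y => glue x y) [] (b :: l) = T at *
    obtain ⟨d1, d2, d3⟩ := dd_spec a T
    have h1 : a <+: glue a T := by
      conv_lhs => rw [← List.take_append_drop (dd a T) a]
      exact (List.prefix_append_right_inj _).2 d2
    refine ⟨h1, ?_, List.forall_mem_cons.2 ⟨h1.isInfix, fun z hz =>
      (ih.2.2 z hz).trans (List.suffix_append _ _).isInfix⟩⟩
    have := d3 _ ((dd_spec a b).2.1.trans ih.1)
    have := ih.2.1
    rw [glue, cst, List.length_append, List.length_take]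
    omega

end Vale.Agent.P333
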