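import Mathlib.Data.List.Infix
import Mathlib.Data.List.GetD
import Mathlib.Data.Int.LeastGreatest
import Mathlib.Algebra.Ring.Periodic
import Mathlib.Order.Monotone.Basic
import Mathlib.Tactic.Ring
import Mathlib.Tactic.Linarith

/-! Factors of a bi-infinite word. -/

namespace Vale.Agent.P333

/-- The factor of `ω` on the positions `i, …, j - 1`. -/
def seg (ω : ℤ → ℕ) (i j : ℤ) : List ℕ := (List.range (j - i).toNat).map fun k : ℕ => ω (i + k)

variable {ω ω' : ℤ → ℕ} {i j i' j' : ℤ}

@[simp] theorem seg_length : (seg ω i j).length = (j - i).toNat := by simp [seg]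

theorem seg_get {k : ℕ} (h : k < (seg ω i j).length) : (seg ω i j)[k] = ω (i + k) := by
  simp [seg]

theorem seg_ext (h1 : (j - i).toNat = (j' - i').toNat)
    (h2 : ∀ k : ℕ, (k : ℤ) < j - i → ω (i + k) = ω' (i' + k)) : seg ω i j = seg ω' i' j' := by
  refine List.ext_getElem (by simpa using h1) fun k hk _ => ?_
  rw [seg_get, seg_get]
  rw [seg_length] at hk
  exact h2 k (by omega)

theorem seg_agree (h : seg ω i j = seg ω' i j) (x : ℤ) (h1 : i ≤ x) (h2 : x < j) : ω x = ω' x := by
  have h3 : (x - i).toNat < (seg ω i j).length := by rw [seg_length]; omega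
  have h4 := seg_get h3
  have h5 : (x - i).toNat < (seg ω' i j).length := by rw [seg_length]; omega
  have h6 := seg_get h5
  rw [show i + ((x - i).toNat : ℤ) = x by omega] at h4 h6
  rw [← h4, ← h6]
  simp only [h]

theorem seg_congr (h : ∀ x, i ≤ x → x < j → ω x = ω' x) : seg ω i j = seg ω' i j :=
  seg_ext rfl fun k hk => h _ (by omega) (by omega)

theorem seg_nil (h : j ≤ i) : seg ω i j = [] := List.eq_nil_of_length_eq_zero (by simp; omega)

theorem seg_ne_nil (h : i < j) : seg ω i j ≠ [] := fun e => by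
  have := congrArg List.length e
  simp at this
  omega

theorem seg_drop (k : ℕ) : (seg ω i j).drop k = seg ω (i + k) j := by
  refine List.ext_getElem (by simp; omega) fun m h1 h2 => ?_
  rw [List.getElem_drop, seg_get, seg_get]
  congr 1
  push_cast
  ring

theorem seg_take (k : ℕ) (h : i + k ≤ j) : (seg ω i j).take k = seg ω i (i + k) := by
  refine List.ext_getElem (by simp; omega) fun m h1 h2 => ?_
  rw [List.getElem_take, seg_get, seg_get]

theorem seg_tail : (seg ω i j).tail = seg ω (i + 1) j := by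
  rw [← List.drop_one, seg_drop]
  rfl

theorem seg_dropLast : (seg ω i j).dropLast = seg ω i (j - 1) := by
  refine List.ext_getElem (by simp; omega) fun m h1 h2 => ?_
  rw [List.getElem_dropLast, seg_get, seg_get]

theorem seg_pre (h : j ≤ j') : seg ω i j <+: seg ω i j' := by
  by_cases h1 : i ≤ j
  · have := seg_take (ω := ω) (i := i) (j := j') (j - i).toNat (by omega)
    rw [show i + ((j - i).toNat : ℤ) = j by omega] at this
    exact this ▸ List.take_prefix _ _
  · rw [seg_nil (by omega)]
    exact List.nil_prefix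

theorem seg_suf (h : i' ≤ i) : seg ω i j <:+ seg ω i' j := by
  have := seg_drop (ω := ω) (i := i') (j := j) (i - i').toNat
  rw [show i' + ((i - i').toNat : ℤ) = i by omega] at this
  exact this ▸ List.drop_suffix _ _

theorem seg_inf (h : i' ≤ i) (h' : j ≤ j') : seg ω i j <:+: seg ω i' j' :=
  (seg_suf h).isInfix.trans (seg_pre h').isInfix

theorem inf_seg {u : List ℕ} (h : u <:+: seg ω i j) (hu : u ≠ []) :
    ∃ i' j', i ≤ i' ∧ i' < j' ∧ j' ≤ j ∧ u = seg ω i' j' := by
  obtain ⟨s, t, e⟩ := h
  have h1 := congrArg List.length e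
  have h2 := List.length_pos_iff.2 hu
  simp only [List.length_append, seg_length] at h1
  refine ⟨i + s.length, i + s.length + u.length, by omega, by omega, by omega, ?_⟩
  rw [← seg_take u.length (j := j) (by omega), ← seg_drop, ← e]
  simp

theorem seg_shift (δ : ℤ) : seg (fun x => ω (x + δ)) i j = seg ω (i + δ) (j + δ) :=
  seg_ext (by congr 1; ring) fun k _ => by congr 1; ring

theorem seg_snoc (h : i ≤ j) : seg ω i (j + 1) = seg ω i j ++ [ω j] := by
  have h1 := List.dropLast_append_getLast (seg_ne_nil (ω := ω) (show i < j + 1 by omega))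
  rw [seg_dropLast, add_sub_cancel_right, List.getLast_eq_getElem, seg_get, seg_length,
    show i + (((j + 1 - i).toNat - 1 : ℕ) : ℤ) = j by omega] at h1
  exact h1.symm

theorem seg_cons (h : i < j) : seg ω i j = ω i :: seg ω (i + 1) j := by
  have h1 := List.cons_head_tail (seg_ne_nil (ω := ω) h)
  rw [seg_tail, List.head_eq_getElem, seg_get] at h1
  simpa using h1.symm

theorem per_mul {q : ℤ} (h : ∀ x, ω (x + q) = ω x) (k x : ℤ) : ω (x + k * q) = ω x :=
  Function.Periodic.int_mul (f := ω) h k x

theorem seg_per {q : ℤ} (h : ∀ x, ω (x + q) = ω x) (k : ℤ) :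
    seg ω (i + k * q) (j + k * q) = seg ω i j := by
  rw [← seg_shift]
  exact seg_congr fun x _ _ => per_mul h k x

theorem per_eq {q : ℤ} (hq : 0 < q) (h : ∀ x, ω (x + q) = ω x) (h' : ∀ x, ω' (x + q) = ω' x)
    (a : ℤ) (e : ∀ x, a ≤ x → x < a + q → ω x = ω' x) : ω = ω' := by
  funext x
  have h1 := Int.emod_add_mul_ediv (x - a) q
  have h2 := Int.emod_nonneg (x - a) hq.ne'
  have h3 := Int.emod_lt_of_pos (x - a) hq
  have h4 : x = a + (x - a) % q + (x - a) / q * q := by linarith
  rw [h4, per_mul h, per_mul h']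
  exact e _ (by omega) (by omega)

theorem per_eq2 {q q' : ℤ} (hq : 0 < q) (hq' : 0 < q') (h : ∀ x, ω (x + q) = ω x)
    (h' : ∀ x, ω' (x + q') = ω' x) (a : ℤ) (e : ∀ x, a ≤ x → x < a + q + q' → ω x = ω' x) :
    ω = ω' := by
  have h1 : (fun x => ω' (x + q)) = ω' :=
    per_eq hq' (fun x => by rw [← h' (x + q)]; congr 1; ring) h' a fun x h1 h2 => by
      rw [← e _ (by omega) (by omega), h, e x h1 (by omega)]
  exact per_eq hq h (fun x => congrFun h1 x) a fun x h1 h2 => e x h1 (by omega)

/-- A periodic staircase in the plane of factors of `ω`; its vertices are the points `(i, j)` with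
`b (j - 1) ≤ i ≤ b j`. -/
structure St (q : ℤ) (P : List ℕ → Prop) (ω : ℤ → ℕ) (b : ℤ → ℤ) : Prop where
  pos : 0 < q
  per : ∀ x, ω (x + q) = ω x
  mono : Monotone b
  bper : ∀ j, b (j + q) = b j + q
  mem : ∀ i j, b (j - 1) ≤ i → i ≤ b j → P (seg ω i j)

variable {q : ℤ} {P : List ℕ → Prop} {b : ℤ → ℤ}

theorem St.shift (h : St q P ω b) (δ : ℤ) :
    St q P (fun x => ω (x + δ)) fun j => b (j + δ) - δ where
  pos := h.pos
  per x := by rw [← h.per (x + δ)]; congr 1; ring
  mono x y hxy := by have := h.mono (show x + δ ≤ y + δ by omega); dsimp only; omega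
  bper j := by rw [show j + q + δ = j + δ + q by ring, h.bper]; ring
  mem i j h1 h2 := by
    rw [seg_shift]
    exact h.mem _ _ (by rw [show j + δ - 1 = j - 1 + δ by ring]; omega) (by omega)

theorem St.bmul (h : St q P ω b) (k j : ℤ) : b (j + k * q) = b j + k * q := by
  have := Function.Periodic.int_mul (f := fun j => b j - j) (c := q)
    (fun j => by dsimp only; rw [h.bper]; ring) k j
  simp only [Int.cast_id] at this
  omega

end Vale.Agent.P333
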