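import Vale.Agent.P333.Seg

/-! A closed walk in the hierarchical graph is a periodic staircase. -/

namespace Vale.Agent.P333

/-- Arcs of the hierarchical graph. -/
def Step (a b : List ℕ) : Prop := (b ≠ [] ∧ a = b.dropLast) ∨ (a ≠ [] ∧ b = a.tail)

theorem Step.len {a b : List ℕ} (h : Step a b) :
    (b.length = a.length + 1 ∧ a = b.dropLast) ∨ (a.length = b.length + 1 ∧ b = a.tail) := by
  rcases h with ⟨h, rfl⟩ | ⟨h, rfl⟩
  · have := List.length_pos_iff.2 h
    exact Or.inl ⟨by rw [List.length_dropLast]; omega, rfl⟩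
  · have := List.length_pos_iff.2 h
    exact Or.inr ⟨by rw [List.length_tail]; omega, rfl⟩

theorem stair (z : ℤ → List ℕ) (n : ℤ) (hn : 0 < n) (per : ∀ t, z (t + n) = z t)
    (st : ∀ t, Step (z t) (z (t + 1))) :
    ∃ q ω b, 2 * q = n ∧ St q (fun w => ∃ t, z t = w) ω b ∧
      (∀ t, (z (t + 1)).length = (z t).length + 1 → ∃ j, z (t + 1) = seg ω (b (j - 1)) j) ∧
      ∀ t, (z t).length = (z (t + 1)).length + 1 →
        ∃ i j, b (j - 1) ≤ i ∧ i < b j ∧ z t = seg ω i j := by
  have par : ∀ t : ℤ, (t + (z 0).length - (z t).length) % 2 = 0 := fun t => by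
    induction t using Int.induction_on with
    | zero => simp
    | succ k ih => have := (st k).len; omega
    | pred k ih =>
      have := (st (-k - 1)).len
      rw [sub_add_cancel] at this
      omega
  generalize ((z 0).length : ℤ) = c at par
  obtain ⟨I, J, hs, hd⟩ : ∃ I J : ℤ → ℤ, (∀ t, I t + J t = t + c) ∧ ∀ t, J t - I t = (z t).length :=
    ⟨fun t => (t + c - (z t).length) / 2, fun t => (t + c + (z t).length) / 2,
      fun t => by have := par t; dsimp only; omega, fun t => by have := par t; dsimp only; omega⟩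
  obtain ⟨q, hq⟩ : ∃ q, 2 * q = n := ⟨I (0 + n) - I 0, by
    have := hs (0 + n)
    have h := hd (0 + n)
    have := hs 0
    have := hd 0
    rw [per] at h
    omega⟩
  have hp : ∀ t, I (t + n) = I t + q ∧ J (t + n) = J t + q := fun t => by
    have := hs t
    have := hd t
    have := hs (t + n)
    have := hd (t + n)
    rw [per] at this
    omega
  have h1 : ∀ t, (I (t + 1) = I t ∧ J (t + 1) = J t + 1 ∧ z t = (z (t + 1)).dropLast) ∨
      (I (t + 1) = I t + 1 ∧ J (t + 1) = J t ∧ z (t + 1) = (z t).tail) := fun t => by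
    have := hs t
    have := hd t
    have := hs (t + 1)
    have := hd (t + 1)
    rcases (st t).len with h | h
    · exact Or.inl ⟨by omega, by omega, h.2⟩
    · exact Or.inr ⟨by omega, by omega, h.2⟩
  have mJ : Monotone J := monotone_int_of_le_succ fun t => by have := h1 t; omega
  have mI : Monotone I := monotone_int_of_le_succ fun t => by have := h1 t; omega
  have hτ : ∀ j, ∃ t, J t ≤ j ∧ ∀ s, J s ≤ j → s ≤ t := fun j =>
    Int.exists_greatest_of_bdd ⟨2 * j - c, fun t ht => by have := hs t; have := hd t; omega⟩ (by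
      obtain ⟨k, k1, k2⟩ : ∃ k, k ≤ 0 ∧ k ≤ j - J 0 := ⟨min 0 (j - J 0), by omega, by omega⟩
      have e := Function.Periodic.int_mul (f := z) per k 0
      have := hs (0 + k * n)
      have := hd (0 + k * n)
      have := hs 0
      have := hd 0
      simp only [Int.cast_id] at e
      rw [e] at *
      have : k * n ≤ k * 2 := mul_le_mul_of_nonpos_left (by omega) k1
      exact ⟨0 + k * n, by omega⟩)
  choose τ t1 t2 using hτ
  have t3 : ∀ j, J (τ j) = j := fun j => by
    have := t1 j
    have := t2 j (τ j + 1)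
    have := h1 (τ j)
    omega
  have t4 : ∀ j t, t ≤ τ j → J t ≤ j := fun j t h => (mJ h).trans (t1 j)
  have t5 : ∀ j, τ (j + q) = τ j + n := fun j => by
    have := t2 (j + q) (τ j + n) (by rw [(hp _).2, t3])
    have h := (hp (τ (j + q) - n)).2
    rw [sub_add_cancel, t3] at h
    have := t2 j (τ (j + q) - n) (by omega)
    omega
  let ω : ℤ → ℕ := fun p => (z (τ p + 1)).getD (p - I (τ p + 1)).toNat 0
  have key : ∀ p t, τ p + 1 ≤ t → I t ≤ p → (z t).getD (p - I t).toNat 0 = ω p := by
    intro p t ht
    induction t, ht using Int.leInduction with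
    | base => exact fun _ => rfl
    | succ t ht ih =>
      intro h
      have h2 := t2 p t
      have h3 := hd t
      rw [← ih ((mI (by omega)).trans h)]
      rcases h1 t with ⟨a1, a2, a3⟩ | ⟨a1, a2, a3⟩
      · have h4 := hd (t + 1)
        rw [a1, List.getD_eq_getElem _ _ (by omega), List.getD_eq_getElem _ _ (by omega)]
        simp only [a3, List.getElem_dropLast]
      · rw [a3, show (p - I t).toNat = (p - I (t + 1)).toNat + 1 by omega]
        cases z t <;> simp
  have hz : ∀ t, z t = seg ω (I t) (J t) := fun t => by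
    have h3 := hd t
    refine List.ext_getElem (by rw [seg_length]; omega) fun k k1 k2 => ?_
    have := t2 (I t + k)
    rw [seg_get, ← key _ t (not_lt.1 fun h => by have := t4 (I t + k) t (by omega); omega)
      (by omega), show (I t + k - I t).toNat = k by omega, List.getD_eq_getElem _ _ k1]
  refine ⟨q, ω, fun j => I (τ j), hq, ⟨by omega, fun x => ?_, fun x y h => mI (t2 _ _ ((t1 x).trans h)),
    fun j => by rw [t5, (hp _).1], fun i j a1 a2 => ⟨i + j - c, ?_⟩⟩, fun t h => ⟨J (t + 1), ?_⟩,
    fun t h => ⟨I t, J t, ?_, ?_, hz t⟩⟩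
  · simp only [ω]
    rw [t5, show τ x + n + 1 = τ x + 1 + n by ring, per, (hp _).1]
    congr 2
    ring
  · have := hs (τ j)
    have := hs (τ (j - 1))
    have := t3 j
    have := t3 (j - 1)
    have := t4 j (i + j - c) (by omega)
    have := t2 (j - 1) (i + j - c)
    have := hs (i + j - c)
    rw [hz]
    congr 1 <;> omega
  · have := hd t
    have := hd (t + 1)
    have := h1 t
    have a1 := t2 (J (t + 1) - 1) t (by omega)
    have a2 := t4 (J (t + 1) - 1) (t + 1)
    dsimp only
    rw [show τ (J (t + 1) - 1) = t by omega]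
    exact (hz _).trans (by congr 1; omega)
  · exact mI (not_lt.1 fun h => by have := t4 (J t - 1) t h.le; omega)
  · have := hd t
    have := hd (t + 1)
    have := h1 t
    have := mI (t2 (J t) (t + 1) (by omega))
    dsimp only
    omega

end Vale.Agent.P333
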