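import Vale.Agent.Common.TreeDiv

/-! More list operations in polynomial time. -/

namespace Vale.Agent.P333

open Vale.Agent.Common.TreeTM

variable {α β γ : Type} [Enc α] [Enc β] [Enc γ]

theorem sz_append (l l' : List β) : sz (l ++ l') + 1 = sz l + sz l' := by
  induction l with
  | nil => rw [List.nil_append, sz_lnil, add_comm]
  | cons a l ih => rw [List.cons_append, sz_lcons, sz_lcons]; omega

theorem sz_sublist {l l' : List β} (h : l.Sublist l') : sz l ≤ sz l' := by
  induction h with
  | slnil => exact le_rfl
  | cons a _ ih => rw [sz_lcons]; omega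
  | cons_cons a _ ih => rw [sz_lcons, sz_lcons]; omega

@[fun_prop] theorem tc_flatMap {f : α → β → List γ} {l : α → List β}
    (hf : TC 0 fun p : α × β => f p.1 p.2) (hl : TC 0 l) : TC 0 fun a => (l a).flatMap (f a) := by
  have hf' : TC 0 fun p : α × List γ × β => f p.1 p.2.2 :=
    TC.comp (g := fun p : α × List γ × β => (p.1, p.2.2)) hf (by fun_prop)
  refine (TC.foldl_grow (f := fun a acc x => acc ++ f a x) (i := fun _ => [])
    (by fun_prop) (by fun_prop) hl (m := fun p => sz (f p.1 p.2)) hf.bd
    (fun a acc x => by
      have := sz_append acc (f a x)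
      dsimp only
      omega)).of_eq fun a => ?_
  have : ∀ (l : List β) (acc : List γ), l.foldl (fun acc x => acc ++ f a x) acc =
      acc ++ l.flatMap (f a) := by
    intro l
    induction l with
    | nil => simp
    | cons x l ih => intro acc; simp [ih]
  simp [this]

@[fun_prop] theorem tc_take {l : α → List β} {k : α → ℕ} (hl : TC 0 l) (hk : TC 0 k) :
    TC 0 fun a => (l a).take (k a) := by
  have h := TC.foldl_grow (f := fun a (acc : List β) (x : β) =>
      bif nlt acc.length (k a) then acc ++ [x] else acc) (i := fun _ => [])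
    (by fun_prop) (by fun_prop) hl (m := fun p => sz p + 1) ((Bd.sz 0).add (Bd.const _ _))
    (fun a acc x => by
      have := sz_append acc [x]
      rw [sz_lcons, sz_lnil] at this
      cases nlt acc.length (k a) <;> simp only [Bool.cond_true, Bool.cond_false, sz_pair] <;> omega)
  refine h.of_eq fun a => ?_
  have : ∀ (t acc : List β), t.foldl (fun (acc : List β) (x : β) =>
      bif nlt acc.length (k a) then acc ++ [x] else acc) acc =
      acc ++ t.take (k a - acc.length) := by
    intro t
    induction t with
    | nil => simp
    | cons x t ih =>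
      intro acc
      rw [List.foldl_cons, ih]
      by_cases hlt : acc.length < k a
      · obtain ⟨m, hm⟩ : ∃ m, k a - acc.length = m + 1 := ⟨k a - acc.length - 1, by omega⟩
        have : k a - (acc.length + 1) = m := by omega
        simp [nlt, hlt, hm, this]
      · have : k a - acc.length = 0 := by omega
        simp [nlt, hlt, this]
  simp [this]

@[fun_prop] theorem tc_drop {l : α → List β} {k : α → ℕ} (hl : TC 0 l) (hk : TC 0 k) :
    TC 0 fun a => (l a).drop (k a) := by
  have : TC 0 fun a => ((l a).reverse.take ((l a).length - k a)).reverse := by fun_prop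
  exact this.of_eq fun a => by rw [← List.reverse_drop, List.reverse_reverse]

@[fun_prop] theorem tc_dropLast {l : α → List β} (hl : TC 0 l) : TC 0 fun a => (l a).dropLast := by
  have : TC 0 fun a => (l a).take ((l a).length - 1) := by fun_prop
  exact this.of_eq fun a => List.dropLast_eq_take

@[fun_prop] theorem tc_filter {f : α → β → Bool} {l : α → List β}
    (hf : TC 0 fun p : α × β => f p.1 p.2) (hl : TC 0 l) : TC 0 fun a => (l a).filter (f a) := by
  have : TC 0 fun a => (l a).flatMap fun x => bif f a x then [x] else [] := by fun_prop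
  refine this.of_eq fun a => ?_
  induction l a with
  | nil => rfl
  | cons x t ih => rw [List.filter_cons, List.flatMap_cons, ih]; cases f a x <;> rfl

@[fun_prop] theorem tc_countP {f : α → β → Bool} {l : α → List β}
    (hf : TC 0 fun p : α × β => f p.1 p.2) (hl : TC 0 l) : TC 0 fun a => (l a).countP (f a) :=
  (TC.length (tc_filter hf hl)).of_eq fun _ => List.countP_eq_length_filter

@[fun_prop] theorem tc_eraseP {f : α → β → Bool} {l : α → List β}
    (hf : TC 0 fun p : α × β => f p.1 p.2) (hl : TC 0 l) : TC 0 fun a => (l a).eraseP (f a) := by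
  have hf' : TC 0 fun p : α × (Bool × List β) × β => f p.1 p.2.2 :=
    TC.comp (g := fun p : α × (Bool × List β) × β => (p.1, p.2.2)) hf (by fun_prop)
  refine (TC.snd (TC.foldl_grow (f := fun a (s : Bool × List β) x =>
    bif !s.1 && f a x then (true, s.2) else (s.1, s.2 ++ [x])) (i := fun _ => (false, []))
    (by fun_prop) (by fun_prop) hl (m := fun p => sz p + 3) ((Bd.sz 0).add (Bd.const _ _))
    (fun a s x => by
      have := sz_append s.2 [x]
      have := sz_bool true
      rw [sz_lcons, sz_lnil] at *
      cases (!s.1 && f a x) <;> simp only [Bool.cond_true, Bool.cond_false, sz_pair, sz_prod s] <;>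
        omega))).of_eq fun a => ?_
  have : ∀ (t acc : List β) (c : Bool), (t.foldl (fun (s : Bool × List β) x =>
      bif !s.1 && f a x then (true, s.2) else (s.1, s.2 ++ [x])) (c, acc)).2 =
      acc ++ bif c then t else t.eraseP (f a) := by
    intro t
    induction t with
    | nil => intro acc c; cases c <;> simp
    | cons x t ih =>
      intro acc c
      rw [List.foldl_cons]
      cases c <;> cases h : f a x <;> simp [ih, h]
  simp [this]

def neq (a b : ℕ) : Bool := decide (a = b)

@[fun_prop] theorem tc_neq {f g : α → ℕ} (hf : TC 0 f) (hg : TC 0 g) :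
    TC 0 fun a => neq (f a) (g a) := by
  have : TC 0 fun a => !(nlt (f a) (g a)) && !(nlt (g a) (f a)) := by fun_prop
  refine this.of_eq fun a => ?_
  simp only [neq, nlt]
  rcases lt_trichotomy (f a) (g a) with h | h | h
  · simp [h, h.ne]
  · simp [h]
  · simp [h, h.ne']

def eqs (a b : List ℕ) : Bool := decide (a = b)

@[fun_prop] theorem tc_eqs {f g : α → List ℕ} (hf : TC 0 f) (hg : TC 0 g) :
    TC 0 fun a => eqs (f a) (g a) := by
  have : TC 0 fun a => neq (f a).length (g a).length &&
    (idx (f a)).all fun i => neq ((f a).getD i 0) ((g a).getD i 0) := by fun_prop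
  refine this.of_eq fun a => Bool.eq_iff_iff.2 ?_
  simp only [eqs, neq, idx, decide_eq_true_eq, Bool.and_eq_true, List.all_eq_true, List.mem_range]
  refine ⟨fun h => by simp [h], fun h => List.ext_getElem h.1 fun i h1 h2 => ?_⟩
  have := h.2 i h1
  rwa [List.getD_eq_getElem _ _ h1, List.getD_eq_getElem _ _ h2] at this

def mem (a : List ℕ) (l : List (List ℕ)) : Bool := decide (a ∈ l)

@[fun_prop] theorem tc_mem {f : α → List ℕ} {g : α → List (List ℕ)} (hf : TC 0 f) (hg : TC 0 g) :
    TC 0 fun a => mem (f a) (g a) := by
  have : TC 0 fun a => !(g a).all fun x => !eqs (f a) x := by fun_prop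
  refine this.of_eq fun a => Bool.eq_iff_iff.2 ?_
  simp [mem, eqs]

def pre (a b : List ℕ) : Bool := decide (a <+: b)

@[fun_prop] theorem tc_pre {f g : α → List ℕ} (hf : TC 0 f) (hg : TC 0 g) :
    TC 0 fun a => pre (f a) (g a) := by
  have : TC 0 fun a => eqs (f a) ((g a).take (f a).length) := by fun_prop
  refine this.of_eq fun a => Bool.eq_iff_iff.2 ?_
  simp [pre, eqs, List.prefix_iff_eq_take]

/-- Repeatedly moving to the first candidate ends in a state without candidates. -/
theorem fold_stop {σ τ : Type} (c : σ → List σ) (I : σ → Prop) (μ : σ → ℕ)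
    (h : ∀ x, I x → ∀ y ∈ c x, I y ∧ μ y < μ x) (l : List τ) :
    ∀ x, I x → μ x ≤ l.length → I (l.foldl (fun s _ => (c s).headD s) x) ∧
      c (l.foldl (fun s _ => (c s).headD s) x) = [] := by
  induction l with
  | nil =>
    intro x hx h0
    refine ⟨hx, List.eq_nil_iff_forall_not_mem.2 fun y hy => ?_⟩
    have := (h x hx y hy).2
    simp at h0
    omega
  | cons a l ih =>
    intro x hx h0
    rw [List.foldl_cons]
    cases e : c x with
    | nil =>
      have : ∀ l : List τ, l.foldl (fun s _ => (c s).headD s) x = x := fun l => by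
        induction l with
        | nil => rfl
        | cons a l ih => rw [List.foldl_cons, e]; exact ih
      rw [List.headD_nil, this]
      exact ⟨hx, e⟩
    | cons y t =>
      have := h x hx y (by simp [e])
      rw [List.length_cons] at h0
      exact ih y this.1 (by omega)

end Vale.Agent.P333
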