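import Vale.Agent.P333.Valid
import Vale.Agent.P333.Stair

/-! The arcs of the forced multiset and their decomposition into closed trails. -/

namespace Vale.Agent.P333

open Vale.Agent.Common.TreeTM

theorem coe_eraseP (l : List W) (a : W) :
    ((l.eraseP (eqs a) : List W) : Multiset W) = (l : Multiset W).erase a := by
  induction l with
  | nil => rfl
  | cons b l ih =>
    rw [← Multiset.cons_coe]
    by_cases h : a = b
    · subst h
      rw [List.eraseP_cons_of_pos (by simp [eqs]), Multiset.erase_cons_head]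
    · rw [List.eraseP_cons_of_neg (by simp [eqs, h]), Multiset.erase_cons_tail _ (Ne.symm h),
        ← Multiset.cons_coe, ih]

theorem coe_df (l m : List W) : ((df l m : List W) : Multiset W) = (l : Multiset W) - m := by
  unfold df
  induction m generalizing l with
  | nil => simp
  | cons a m ih => rw [List.foldl_cons, ih, coe_eraseP, ← Multiset.cons_coe, Multiset.sub_cons]

theorem mem_df {l m : List W} {w : W} : w ∈ df l m ↔ cnt w m < cnt w l := by
  rw [← Multiset.mem_coe, ← Multiset.count_pos, coe_df, Multiset.count_sub, cnt_eq, cnt_eq]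
  omega

theorem df_add {l m : List W} (h0 : [] ∉ l) (h : ∀ w, w ≠ [] → cnt w m ≤ cnt w l) :
    ((df l m : List W) : Multiset W) + (m : Multiset W) =
      (l : Multiset W) + Multiset.replicate (cnt [] m) [] := by
  ext w
  rw [coe_df, Multiset.count_add, Multiset.count_sub, Multiset.count_add, Multiset.count_replicate,
    ← cnt_eq, ← cnt_eq]
  split_ifs with h1
  · subst h1
    have : cnt [] l = 0 := by rw [cnt_eq]; exact Multiset.count_eq_zero.2 h0
    omega
  · have := h w (Ne.symm h1)
    omega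

theorem mem_of_cnt {l : List W} {w : W} (h : 0 < cnt w l) : w ∈ l := by
  rwa [cnt_eq, Multiset.count_pos] at h

theorem arcs_spec {V M : List W} (hV : ∀ u w, u <:+: w → w ∈ V → u ∈ V)
    (hM : ∀ y ∈ M, y ∈ V ∧ y ≠ [])
    (hc : ∀ w ∈ V, w ≠ [] → cnt w (M.map List.tail) ≤ cnt w M ∧ cnt w (M.map List.dropLast) ≤ cnt w M) :
    (∀ e ∈ arcs M, Step e.1 e.2 ∧ e.1 ∈ V ∧ e.2 ∈ V) ∧
      (∀ w, ¬ tL M w → (w.dropLast, w) ∈ arcs M) ∧ (∀ w, ¬ tR M w → (w, w.tail) ∈ arcs M) ∧
      (((arcs M).map Prod.fst : List W) : Multiset W) = ((arcs M).map Prod.snd : List W) ∧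
      (arcs M).length = cnt [] (M.map List.tail) + cnt [] (M.map List.dropLast) := by
  have h0 : [] ∉ M := fun h => (hM _ h).2 rfl
  have h1 := df_add (m := M.map List.tail) h0 fun w hw => not_lt.1 fun h => by
    obtain ⟨y, hy, rfl⟩ := List.mem_map.1 (mem_of_cnt (Nat.zero_lt_of_lt h))
    exact h.not_ge (hc _ (hV _ _ (List.tail_suffix _).isInfix (hM y hy).1) hw).1
  have h2 := df_add (m := M.map List.dropLast) h0 fun w hw => not_lt.1 fun h => by
    obtain ⟨y, hy, rfl⟩ := List.mem_map.1 (mem_of_cnt (Nat.zero_lt_of_lt h))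
    exact h.not_ge (hc _ (hV _ _ (List.dropLast_prefix _).isInfix (hM y hy).1) hw).2
  refine ⟨fun e he => ?_, fun w hw => List.mem_append_left _ (List.mem_map.2 ⟨w, mem_df.2
    (not_le.1 hw), rfl⟩), fun w hw => List.mem_append_right _ (List.mem_map.2 ⟨w, mem_df.2
    (not_le.1 hw), rfl⟩), ?_, ?_⟩
  · rcases List.mem_append.1 he with he | he <;> obtain ⟨w, hw, rfl⟩ := List.mem_map.1 he <;>
      have := hM w (mem_of_cnt (Nat.zero_lt_of_lt (mem_df.1 hw)))
    · exact ⟨Or.inl ⟨this.2, rfl⟩, hV _ _ (List.dropLast_prefix _).isInfix this.1, this.1⟩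
    · exact ⟨Or.inr ⟨this.2, rfl⟩, this.1, hV _ _ (List.tail_suffix _).isInfix this.1⟩
  · have h3 := congrArg (Multiset.map List.dropLast) h1
    have h4 := congrArg (Multiset.map List.tail) h2
    simp only [Multiset.map_add, Multiset.map_coe, Multiset.map_replicate, List.map_map,
      List.dropLast_nil, List.tail_nil] at h3 h4
    have h5 : (List.dropLast ∘ List.tail : W → W) = List.tail ∘ List.dropLast :=
      funext fun w => List.tail_dropLast.symm
    rw [h5] at h3
    simp only [arcs, List.map_append, List.map_map, ← Multiset.coe_add, Function.comp_def,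
      List.map_id'] at h3 h4 ⊢
    refine add_right_cancel (b := ((M.map fun w => w.dropLast.tail : List W) : Multiset W)) ?_
    rw [add_right_comm, h3, add_assoc _ _ ((M.map fun w => w.dropLast.tail : List W) : Multiset W),
      h4, ← add_assoc, h1, add_right_comm, add_comm _ ((df _ _ : List W) : Multiset W), h2,
      add_right_comm]
  · have h3 := congrArg Multiset.card h1
    have h4 := congrArg Multiset.card h2
    simp only [Multiset.card_add, Multiset.coe_card, List.length_map, Multiset.card_replicate,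
      arcs, List.length_append] at h3 h4 ⊢
    omega

/-- A walk in the hierarchical graph on `V`. -/
def Walk (V K : List W) : Prop :=
  K ≠ [] ∧ K.IsChain Step ∧ (∀ z ∈ K, z ∈ V) ∧ (2 ≤ K.length ∨ [] ∈ K)

structure TI (V : List W) (E : List (W × W)) (s : TS) : Prop where
  walk : ∀ K ∈ s.2.1 :: s.1, Walk V K
  closed : ∀ K ∈ s.1, K.getLastD [] = K.headD []
  sub : ∀ e ∈ s.2.2, e ∈ E
  bal : s.2.1.headD [] ::ₘ ((s.2.2.map Prod.fst : List W) : Multiset W) =
    s.2.1.getLastD [] ::ₘ (s.2.2.map Prod.snd : List W)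
  cov : ∀ e ∈ E, e ∈ s.2.2 ∨ ∃ K ∈ s.2.1 :: s.1, [e.1, e.2] <:+: K
  len : ((s.2.1 :: s.1).map fun K => K.length - 1).sum + s.2.2.length = E.length

theorem TI.stop {V : List W} {E : List (W × W)} {s : TS} (h : TI V E s)
    (h1 : s.2.2.filter (ends s.2.1) = []) : s.2.1.getLastD [] = s.2.1.headD [] := by
  have h2 : s.2.1.headD [] ∈ s.2.1.getLastD [] ::ₘ ((s.2.2.map Prod.snd : List W) : Multiset W) :=
    h.bal ▸ Multiset.mem_cons_self _ _
  rcases Multiset.mem_cons.1 h2 with h2 | h2
  · exact h2.symm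
  · obtain ⟨e, he, h3⟩ := List.mem_map.1 h2
    exact absurd (by simp [ends, eqs, h3]) (List.filter_eq_nil_iff.1 h1 e he)

theorem TI.step {V : List W} {E : List (W × W)} (hE : ∀ e ∈ E, Step e.1 e.2 ∧ e.1 ∈ V ∧ e.2 ∈ V)
    {s : TS} (h : TI V E s) (h0 : s.2.2 ≠ []) :
    TI V E (tstep s) ∧ (tstep s).2.2.length + 1 = s.2.2.length := by
  obtain ⟨D, K, rem⟩ := s
  have hs := h.stop
  obtain ⟨a1, a2, a3, a4, a5, a6⟩ := h
  dsimp only at *
  unfold tstep
  cases h : rem.filter (ends K) with
  | nil =>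
    obtain ⟨e, rem, rfl⟩ := List.exists_cons_of_ne_nil h0
    have he := hE e (a3 e (by simp))
    simp only [isCons, List.isEmpty_nil, Bool.not_true, Bool.cond_false, List.headD_cons,
      List.tail_cons]
    refine ⟨⟨fun K' hK => ?_, fun K' hK => ?_, fun e he => a3 e (List.mem_cons_of_mem _ he), ?_,
      fun e' he' => ?_, ?_⟩, rfl⟩
    · rcases List.mem_cons.1 hK with rfl | hK
      · exact ⟨by simp, by simpa using he.1, by simpa using he.2, by simp⟩
      · exact a1 K' hK
    · rcases List.mem_cons.1 hK with rfl | hK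
      · exact hs h
      · exact a2 K' hK
    · rw [hs h] at a4
      simpa [← Multiset.cons_coe] using a4
    · rcases a5 e' he' with h1 | ⟨K', h1, h2⟩
      · rcases List.mem_cons.1 h1 with rfl | h1
        · exact Or.inr ⟨_, List.mem_cons_self, List.infix_rfl⟩
        · exact Or.inl h1
      · exact Or.inr ⟨K', List.mem_cons_of_mem _ h1, h2⟩
    · simp only [List.map_cons, List.sum_cons, List.length_cons, List.length_nil] at a6 ⊢
      omega
  | cons e E' =>
    have he : e ∈ rem.filter (ends K) := by simp [h]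
    obtain ⟨a, l1, l2, b1, b2, b3, b4⟩ := List.exists_of_eraseP (List.mem_filter.1 he).1
      (List.mem_filter.1 he).2
    obtain rfl : a = e := by
      rw [b3, List.filter_append, List.filter_eq_nil_iff.2 b1, List.filter_cons_of_pos b2] at h
      exact (List.cons.inj h).1
    obtain ⟨w1, w2, w3, -⟩ := a1 K List.mem_cons_self
    obtain ⟨x, K, rfl⟩ := List.exists_cons_of_ne_nil w1
    obtain rfl : a.2 = x := by simpa [ends, eqs] using b2
    replace he := hE a (a3 a (by simp [b3]))
    simp only [isCons, List.isEmpty_cons, Bool.not_false, Bool.cond_true, List.headD_cons, b4]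
    subst b3
    refine ⟨⟨fun K' hK => ?_, a2, fun e he => a3 e (by simp at he ⊢; tauto), ?_,
      fun e' he' => ?_, ?_⟩, by simp; omega⟩
    · rcases List.mem_cons.1 hK with rfl | hK
      · exact ⟨by simp, List.isChain_cons_cons.2 ⟨he.1, w2⟩,
          List.forall_mem_cons.2 ⟨he.2.1, w3⟩, by simp⟩
      · exact a1 K' (List.mem_cons_of_mem _ hK)
    · simp only [List.headD_cons, List.getLastD_cons, List.map_append, List.map_cons,
        ← Multiset.coe_add, ← Multiset.cons_coe, Multiset.add_cons] at a4 ⊢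
      rw [Multiset.cons_swap (K.getLastD a.2)] at a4
      exact (Multiset.cons_inj_right _).1 a4
    · rcases a5 e' he' with h1 | ⟨K', h1, h2⟩
      · by_cases h2 : e' = a
        · exact Or.inr ⟨_, List.mem_cons_self, h2 ▸ (List.prefix_append [a.1, a.2] K).isInfix⟩
        · exact Or.inl (by simp at h1 ⊢; tauto)
      · rcases List.mem_cons.1 h1 with rfl | h1
        · exact Or.inr ⟨_, List.mem_cons_self, List.infix_cons h2⟩
        · exact Or.inr ⟨K', List.mem_cons_of_mem _ h1, h2⟩
    · simp only [List.map_cons, List.sum_cons, List.length_cons, List.length_append] at a6 ⊢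
      omega

theorem trails_spec {V : List W} {E : List (W × W)} (h0 : [] ∈ V)
    (hE : ∀ e ∈ E, Step e.1 e.2 ∧ e.1 ∈ V ∧ e.2 ∈ V)
    (hb : ((E.map Prod.fst : List W) : Multiset W) = (E.map Prod.snd : List W)) :
    (∀ K ∈ trails E, Walk V K ∧ K.getLastD [] = K.headD []) ∧
      (∀ e ∈ E, ∃ K ∈ trails E, [e.1, e.2] <:+: K) ∧
      ((trails E).map fun K => K.length - 1).sum = E.length := by
  have key : ∀ (l : List (W × W)) (s : TS), TI V E s → s.2.2.length = l.length →
      TI V E (l.foldl (fun s _ => tstep s) s) ∧ (l.foldl (fun s _ => tstep s) s).2.2 = [] := by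
    intro l
    induction l with
    | nil => exact fun s h1 h2 => ⟨h1, List.eq_nil_of_length_eq_zero h2⟩
    | cons a l ih =>
      intro s h1 h2
      rw [List.length_cons] at h2
      have := h1.step hE (List.ne_nil_of_length_pos (by omega))
      exact ih (tstep s) this.1 (by omega)
  obtain ⟨h1, h2⟩ : TI V E (tfin E) ∧ (tfin E).2.2 = [] := key E ([], [[]], E)
    ⟨by simp [Walk, h0], by simp, fun _ h => h, by simp [hb], fun e he => Or.inl he, by simp⟩ rfl
  refine ⟨fun K hK => ⟨h1.walk K hK, ?_⟩, fun e he => (h1.cov e he).resolve_left (by simp [h2]),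
    by simpa [h2, trails] using h1.len⟩
  rcases List.mem_cons.1 hK with rfl | hK
  · exact h1.stop (by simp [h2])
  · exact h1.closed K hK

theorem Walk.stair {V K : List W} (h : Walk V K) (hc : K.getLastD [] = K.headD [])
    (hl : 2 ≤ K.length) : ∃ (q : ℤ) (ω : ℤ → ℕ) (b : ℤ → ℤ), 2 * q + 1 = K.length ∧ St q (· ∈ K) ω b ∧
      (∀ w, w ≠ [] → [w.dropLast, w] <:+: K → ∃ j, w = seg ω (b (j - 1)) j) ∧
      ∀ w, w ≠ [] → [w, w.tail] <:+: K → ∃ i j, b (j - 1) ≤ i ∧ i < b j ∧ w = seg ω i j := by
  obtain ⟨n, hn⟩ : ∃ n : ℕ, K.length = n + 1 := ⟨K.length - 1, by omega⟩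
  have h1 : K.getD n [] = K.getD 0 [] := by
    rw [List.getLastD_eq_getLast?, List.getLast?_eq_getElem?, List.headD_eq_head?_getD,
      List.head?_eq_getElem?, hn] at hc
    simpa using hc
  have hr : ∀ t : ℤ, 0 ≤ t % n ∧ t % n < n := fun t =>
    ⟨Int.emod_nonneg _ (by omega), Int.emod_lt_of_pos _ (by omega)⟩
  have h2 : ∀ t : ℤ, K.getD ((t + 1) % n).toNat [] = K.getD ((t % n).toNat + 1) [] := fun t => by
    have := hr t
    rw [← Int.emod_add_emod]
    by_cases h3 : t % n + 1 < n
    · rw [Int.emod_eq_of_lt (by omega) h3]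
      congr 1
      omega
    · rw [show t % n + 1 = n by omega, show (t % n).toNat + 1 = n by omega, Int.emod_self, h1]
      rfl
  obtain ⟨q, ω, b, a1, a2, a3, a4⟩ := Vale.Agent.P333.stair (fun t => K.getD (t % n).toNat []) n
    (by omega) (fun t => by rw [Int.add_emod_right]) fun t => by
      have := hr t
      rw [h2, List.getD_eq_getElem _ _ (by omega), List.getD_eq_getElem _ _ (by omega)]
      exact List.isChain_iff_getElem.1 h.2.1 _ _
  have h3 : ∀ x y, [x, y] <:+: K → ∃ t : ℤ, K.getD (t % n).toNat [] = x ∧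
      K.getD ((t + 1) % n).toNat [] = y := by
    rintro x y ⟨l1, l2, e⟩
    have := congrArg List.length e
    simp only [List.length_append, List.length_cons, List.length_nil] at this
    refine ⟨l1.length, ?_⟩
    rw [h2, Int.emod_eq_of_lt (by omega) (by omega), ← e]
    simp
  refine ⟨q, ω, b, by omega, ⟨a2.pos, a2.per, a2.mono, a2.bper, fun i j c1 c2 => ?_⟩,
    fun w hw hK => ?_, fun w hw hK => ?_⟩
  · obtain ⟨t, ht⟩ := a2.mem i j c1 c2
    have := hr t
    rw [← ht, List.getD_eq_getElem _ _ (by omega)]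
    exact List.getElem_mem _
  · obtain ⟨t, t1, t2⟩ := h3 _ _ hK
    have := List.length_pos_iff.2 hw
    exact t2 ▸ a3 t (by rw [t1, t2, List.length_dropLast]; omega)
  · obtain ⟨t, t1, t2⟩ := h3 _ _ hK
    have := List.length_pos_iff.2 hw
    exact t1 ▸ a4 t (by rw [t1, t2, List.length_tail]; omega)

end Vale.Agent.P333
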