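import Vale.Agent.P333.Algo
import Vale.Agent.P333.Core
import Mathlib.Data.Int.Interval
import Mathlib.Data.Finset.Prod

/-! The multiset of forced strings is a lower bound for every short superstring. -/

namespace Vale.Agent.P333

open Vale.Agent.Common.TreeTM Finset

theorem cnt_eq (w : W) (l : List W) : cnt w l = Multiset.count w (l : Multiset W) := by
  induction l with
  | nil => rfl
  | cons a l ih =>
    rw [← Multiset.cons_coe, Multiset.count_cons, ← ih]
    simp [cnt, List.countP_cons, eqs]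

def tL (M : List W) (w : W) : Prop := cnt w M ≤ cnt w (M.map List.tail)
def tR (M : List W) (w : W) : Prop := cnt w M ≤ cnt w (M.map List.dropLast)

theorem tLb_iff {M : List W} {w : W} : tLb M w = true ↔ tL M w := by simp [tLb, tL, nlt]
theorem tRb_iff {M : List W} {w : W} : tRb M w = true ↔ tR M w := by simp [tRb, tR, nlt]

theorem Forces.len {tL tR : W → Prop} {v w : W} (h : Forces tL tR v w) : v.length ≤ w.length := by
  induction h with
  | refl => exact le_rfl
  | up _ _ ih => rw [List.length_dropLast] at ih; omega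
  | left _ _ ih => rw [List.length_tail] at ih; omega

variable {ix : List ℕ} {V M F G : List W} {v w T : W}

theorem mem_fstep : w ∈ fstep V M v F ↔ w ∈ V ∧
    (w = v ∨ (tR M w.dropLast ∧ w.dropLast ∈ F) ∨ (tL M w.tail ∧ w.tail ∈ F)) := by
  simp [fstep, eqs, mem, tLb_iff, tRb_iff, or_assoc]

theorem mem_gstep : w ∈ gstep V M F G ↔ w ∈ V ∧ (w = [] ∨ (w.tail ∈ G ∧ ¬ (tR M w ∧ w ∈ F)) ∨
    ∃ u ∈ G, u.dropLast = w ∧ ¬ (tL M u ∧ u ∈ F)) := by
  simp only [gstep, eqs, mem, List.mem_filter, Bool.or_eq_true, decide_eq_true_eq, Bool.and_eq_true,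
    Bool.not_eq_true', ← Bool.not_eq_true, tLb_iff, tRb_iff, List.all_eq_true, or_assoc]
  simp

theorem fset_sound (h : w ∈ fset ix V M v) : Forces (tL M) (tR M) v w := by
  rw [fset, List.foldl_const] at h
  generalize ix.length = k at h
  induction k generalizing w with
  | zero => simp at h
  | succ k ih =>
    rw [Function.iterate_succ_apply', mem_fstep] at h
    rcases h.2 with rfl | h | h
    · exact .refl
    · exact .up h.1 (ih h.2)
    · exact .left h.1 (ih h.2)

theorem fset_complete (hV : ∀ u w, u <:+: w → w ∈ V → u ∈ V) (hv : v ≠ [])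
    (h : Forces (tL M) (tR M) v w) (hw : w ∈ V) (hl : w.length ≤ ix.length) : w ∈ fset ix V M v := by
  rw [fset, List.foldl_const]
  have := List.length_pos_iff.2 hv
  generalize ix.length = k at hl
  induction k generalizing w with
  | zero => have := h.len; omega
  | succ k ih =>
    rw [Function.iterate_succ_apply', mem_fstep]
    refine ⟨hw, ?_⟩
    cases h with
    | refl => exact Or.inl rfl
    | up h1 h2 =>
      exact Or.inr (Or.inl ⟨h1, ih h2 (hV _ _ (List.dropLast_prefix _).isInfix hw)
        (by rw [List.length_dropLast]; omega)⟩)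
    | left h1 h2 =>
      exact Or.inr (Or.inr ⟨h1, ih h2 (hV _ _ (List.tail_suffix _).isInfix hw)
        (by rw [List.length_tail]; omega)⟩)

def om (T : W) (x : ℤ) : ℕ := T.getD x.toNat 0

theorem seg_om : seg (om T) 0 T.length = T :=
  List.ext_getElem (by simp) fun k h1 h2 => by
    rw [seg_get, om, zero_add, Int.toNat_natCast, List.getD_eq_getElem _ _ h2]

def PT (V : List W) (T : W) : Finset (ℤ × ℤ) :=
  (Icc (0 : ℤ) T.length ×ˢ Icc (0 : ℤ) T.length).filter fun p => p.1 < p.2 ∧ seg (om T) p.1 p.2 ∈ V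

def DT (V : List W) (T : W) : Multiset W := (PT V T).val.map fun p => seg (om T) p.1 p.2

theorem mem_PT {p : ℤ × ℤ} :
    p ∈ PT V T ↔ 0 ≤ p.1 ∧ p.1 < p.2 ∧ p.2 ≤ T.length ∧ seg (om T) p.1 p.2 ∈ V := by
  simp only [PT, mem_filter, mem_product, mem_Icc]
  exact ⟨fun h => ⟨h.1.1.1, h.2.1, h.1.2.2, h.2.2⟩,
    fun h => ⟨⟨⟨h.1, by omega⟩, by omega, h.2.2.1⟩, h.2.1, h.2.2.2⟩⟩

theorem count_DT (f : W → W) : ((DT V T).map f).count w =
    ((PT V T).filter fun p => w = f (seg (om T) p.1 p.2)).card := by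
  rw [DT, Multiset.map_map, Multiset.count_map]
  rfl

theorem count_DT' : (DT V T).count w = ((PT V T).filter fun p => w = seg (om T) p.1 p.2).card := by
  simpa using count_DT (V := V) (T := T) (w := w) id

theorem card_shift {A B : Finset (ℤ × ℤ)} (d : ℤ × ℤ) (h : ∀ p ∈ A, p + d ∈ B) :
    A.card ≤ B.card ∧ ∀ p ∈ B, p - d ∉ A → A.card < B.card := by
  have h1 : A.image (· + d) ⊆ B := fun p hp => by
    obtain ⟨x, hx, rfl⟩ := mem_image.1 hp
    exact h x hx
  rw [← card_image_of_injective A (add_left_injective d)]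
  refine ⟨card_le_card h1, fun p hp h2 => card_lt_card ⟨h1, fun h3 => h2 ?_⟩⟩
  obtain ⟨x, hx, rfl⟩ := mem_image.1 (h3 hp)
  simpa using hx

theorem DT_tail (hV : ∀ u w, u <:+: w → w ∈ V → u ∈ V) (hw : w ≠ []) :
    ((DT V T).map List.tail).count w ≤ (DT V T).count w ∧ ∀ i j, (i, j) ∈ PT V T →
      (i - 1, j) ∉ PT V T → w = seg (om T) i j →
      ((DT V T).map List.tail).count w < (DT V T).count w := by
  rw [count_DT, count_DT']
  have := card_shift (A := (PT V T).filter fun p => w = (seg (om T) p.1 p.2).tail)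
    (B := (PT V T).filter fun p => w = seg (om T) p.1 p.2) (1, 0) fun p hp => by
      simp only [mem_filter, mem_PT, seg_tail, Prod.fst_add, Prod.snd_add, add_zero] at hp ⊢
      exact ⟨⟨by omega, not_le.1 fun h => hw (hp.2.trans (seg_nil h)), hp.1.2.2.1,
        hV _ _ (seg_inf (by omega) le_rfl) hp.1.2.2.2⟩, hp.2⟩
  exact ⟨this.1, fun i j h1 h2 h3 => this.2 (i, j) (mem_filter.2 ⟨h1, h3⟩) fun h4 =>
    h2 (by simpa using (mem_filter.1 h4).1)⟩

theorem DT_dropLast (hV : ∀ u w, u <:+: w → w ∈ V → u ∈ V) (hw : w ≠ []) :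
    ((DT V T).map List.dropLast).count w ≤ (DT V T).count w ∧ ∀ i j, (i, j) ∈ PT V T →
      (i, j + 1) ∉ PT V T → w = seg (om T) i j →
      ((DT V T).map List.dropLast).count w < (DT V T).count w := by
  rw [count_DT, count_DT']
  have := card_shift (A := (PT V T).filter fun p => w = (seg (om T) p.1 p.2).dropLast)
    (B := (PT V T).filter fun p => w = seg (om T) p.1 p.2) (0, -1) fun p hp => by
      simp only [mem_filter, mem_PT, seg_dropLast, Prod.fst_add, Prod.snd_add, add_zero,
        ← sub_eq_add_neg] at hp ⊢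
      exact ⟨⟨by omega, not_le.1 fun h => hw (hp.2.trans (seg_nil h)), by omega,
        hV _ _ (seg_inf le_rfl (by omega)) hp.1.2.2.2⟩, hp.2⟩
  exact ⟨this.1, fun i j h1 h2 h3 => this.2 (i, j) (mem_filter.2 ⟨h1, h3⟩) fun h4 =>
    h2 (by simpa using (mem_filter.1 h4).1)⟩

theorem cnt_map_le {D : Multiset W} (h : (M : Multiset W) ≤ D) (f : W → W) (w : W) :
    cnt w (M.map f) ≤ (D.map f).count w := by
  rw [cnt_eq, ← Multiset.map_coe]
  exact Multiset.count_le_of_le _ (Multiset.map_le_map h)

theorem cons_le {D : Multiset W} (h : (M : Multiset W) ≤ D) (h1 : cnt w M < D.count w) :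
    ((w :: M : List W) : Multiset W) ≤ D := by
  rw [← Multiset.cons_coe, Multiset.le_iff_count]
  intro a
  have := Multiset.count_le_of_le a h
  rw [cnt_eq] at h1
  rw [Multiset.count_cons]
  split_ifs with h2
  · subst h2
    omega
  · omega

theorem strict (hV : ∀ u w, u <:+: w → w ∈ V → u ∈ V) (hM : (M : Multiset W) ≤ DT V T) (hv : v ≠ [])
    (h : Forces (tL M) (tR M) v w) (h1 : cnt w M < (DT V T).count w) :
    cnt v M < (DT V T).count v := by
  have h0 := List.length_pos_iff.2 hv
  induction h with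
  | refl => exact h1
  | @up w h2 h3 ih =>
    have := cnt_map_le (cons_le hM h1) List.dropLast w.dropLast
    have := (DT_dropLast (T := T) hV (List.ne_nil_of_length_pos (h0.trans_le h3.len))).1
    simp only [tR, cnt, List.map_cons, List.countP_cons, eqs, decide_true, if_true] at *
    exact ih (by omega)
  | @left w h2 h3 ih =>
    have := cnt_map_le (cons_le hM h1) List.tail w.tail
    have := (DT_tail (T := T) hV (List.ne_nil_of_length_pos (h0.trans_le h3.len))).1
    simp only [tL, cnt, List.map_cons, List.countP_cons, eqs, decide_true, if_true] at *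
    exact ih (by omega)

theorem walk (hV : ∀ u w, u <:+: w → w ∈ V → u ∈ V) (hM : (M : Multiset W) ≤ DT V T)
    (hF : ∀ w ∈ F, (DT V T).count w ≤ cnt w M) (k : ℕ) : ∀ i j : ℤ, 0 ≤ i → i ≤ j → j ≤ T.length →
      seg (om T) i j ∈ V → (i = 0 ∨ j = T.length ∨ seg (om T) (i - 1) (j + 1) ∉ V) →
      2 * T.length - i - j < k → seg (om T) i j ∈ (gstep V M F)^[k] [] := by
  induction k with
  | zero => intro i j; omega
  | succ k ih =>
    intro i j h1 h2 h3 h4 h5 h6
    rw [Function.iterate_succ_apply', mem_gstep]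
    refine ⟨h4, ?_⟩
    by_cases h7 : i = j
    · exact Or.inl (seg_nil h7.ge)
    by_cases h8 : (i, j + 1) ∈ PT V T
    · have h9 := mem_PT.1 h8
      refine Or.inr (Or.inr ⟨_, ih i (j + 1) h1 (by omega) h9.2.2.1 h9.2.2.2 ?_ (by omega),
        by rw [seg_dropLast, add_sub_cancel_right], fun h => ?_⟩)
      · rcases h5 with h5 | h5 | h5
        · exact Or.inl h5
        · omega
        · exact Or.inr (Or.inr fun h => h5 (hV _ _ (seg_inf le_rfl (by omega)) h))
      · have := (DT_tail hV (seg_ne_nil (show i < j + 1 by omega))).2 _ _ h8 (fun h => by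
          have := mem_PT.1 h
          rcases h5 with h5 | h5 | h5
          · omega
          · omega
          · exact h5 this.2.2.2) rfl
        have := cnt_map_le hM List.tail (seg (om T) i (j + 1))
        have := hF _ h.2
        have := h.1
        unfold tL at this
        omega
    · refine Or.inr (Or.inl ⟨seg_tail ▸ ih (i + 1) j (by omega) (by omega) h3
        (hV _ _ (seg_inf (by omega) le_rfl) h4) ?_ (by omega), fun h => ?_⟩)
      · by_cases h9 : j = T.length
        · exact Or.inr (Or.inl h9)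
        · rw [add_sub_cancel_right]
          exact Or.inr (Or.inr fun h => h8 (mem_PT.2 ⟨h1, by omega, by omega, h⟩))
      · have := (DT_dropLast hV (seg_ne_nil (show i < j by omega))).2 _ _
          (mem_PT.2 ⟨h1, by omega, h3, h4⟩) h8 rfl
        have := cnt_map_le hM List.dropLast (seg (om T) i j)
        have := hF _ h.2
        have := h.1
        unfold tR at this
        omega

theorem top_iff {s : W} : top V s = true ↔ ∀ u ∈ V, u ≠ [] → u.dropLast ≠ s ∧ u.tail ≠ s := by
  simp only [top, List.all_eq_true, eqs, isCons]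
  refine forall₂_congr fun u _ => ?_
  by_cases h1 : u = [] <;> by_cases h2 : u.dropLast = s <;> by_cases h3 : u.tail = s <;>
    simp [h1, h2, h3]

theorem fires_iff : fires ix V M v = true ↔ v ≠ [] ∧ (cnt v M < cnt v (M.map List.tail) ∨
    cnt v M < cnt v (M.map List.dropLast) ∨
    ∃ s ∈ V, top V s = true ∧ s ∉ gset ix V M (fset ix V M v)) := by
  simp [fires, isCons, nlt, mem, or_assoc]

theorem fires_valid (hV : ∀ u w, u <:+: w → w ∈ V → u ∈ V) (hM : (M : Multiset W) ≤ DT V T)
    (hT : ∀ w ∈ V, w <:+: T) (hl : 2 * T.length < ix.length) (h : fires ix V M v = true) :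
    ((v :: M : List W) : Multiset W) ≤ DT V T := by
  obtain ⟨hv, h⟩ := fires_iff.1 h
  refine cons_le hM ?_
  rcases h with h | h | ⟨s, h1, h2, h3⟩
  · exact (h.trans_le (cnt_map_le hM _ _)).trans_le (DT_tail hV hv).1
  · exact (h.trans_le (cnt_map_le hM _ _)).trans_le (DT_dropLast hV hv).1
  · refine not_le.1 fun h4 => h3 ?_
    have hw := walk (F := fset ix V M v) hV hM
      (fun w hw => not_lt.1 fun h5 => h4.not_gt (strict hV hM hv (fset_sound hw) h5)) ix.length
    rw [gset, List.foldl_const]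
    by_cases hs : s = []
    · have e : seg (om T) 0 0 = s := hs ▸ seg_nil le_rfl
      exact e ▸ hw 0 0 le_rfl le_rfl (by omega) (e ▸ h1) (Or.inl rfl) (by omega)
    · obtain ⟨i, j, a1, a2, a3, rfl⟩ := inf_seg (seg_om ▸ hT s h1 : s <:+: seg (om T) 0 T.length) hs
      refine hw i j a1 a2.le a3 h1 (Or.inr (Or.inr fun h => ?_)) (by omega)
      exact (top_iff.1 h2 (seg (om T) (i - 1) j) (hV _ _ (seg_inf le_rfl (by omega)) h)
        (seg_ne_nil (by omega))).2 (by rw [seg_tail, sub_add_cancel])

theorem letters (f : W → W) (hf : ∀ w, (f w).length = w.length - 1) :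
    ((DT V T).map f).count [] ≤ T.length := by
  rw [count_DT]
  refine (card_le_card_of_injOn (t := Ico (0 : ℤ) T.length) Prod.fst (fun p hp => ?_)
    fun p hp p' hp' e => ?_).trans (by simp)
  · have := mem_PT.1 (mem_filter.1 hp).1
    exact mem_Ico.2 ⟨this.1, by omega⟩
  · have := mem_PT.1 (mem_filter.1 hp).1
    have := mem_PT.1 (mem_filter.1 hp').1
    have h1 := congrArg List.length (mem_filter.1 hp).2
    have h2 := congrArg List.length (mem_filter.1 hp').2
    rw [hf, seg_length, List.length_nil] at h1 h2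
    exact Prod.ext e (by omega)

theorem mfin_spec (hV : ∀ u w, u <:+: w → w ∈ V → u ∈ V) {T0 : W} (h0 : ∀ w ∈ V, w <:+: T0)
    (hl : 2 * T0.length < ix.length) :
    (∀ y ∈ mfin ix V, y ∈ V ∧ y ≠ []) ∧ (∀ v ∈ V, ¬ fires ix V (mfin ix V) v = true) ∧
      ∀ T, (∀ w ∈ V, w <:+: T) → 2 * T.length < ix.length →
        cnt [] ((mfin ix V).map List.tail) ≤ T.length ∧
          cnt [] ((mfin ix V).map List.dropLast) ≤ T.length := by
  obtain ⟨h1, h2⟩ := fold_stop (mcand ix V)
    (fun M => ∀ T, (∀ w ∈ V, w <:+: T) → 2 * T.length < ix.length → (M : Multiset W) ≤ DT V T)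
    (fun M => (DT V T0).card - M.length) (fun M hM y hy => by
      obtain ⟨v, hv, rfl⟩ := List.mem_map.1 hy
      have h1 := fun T h1 h2 => fires_valid hV (hM T h1 h2) h1 h2 (List.mem_filter.1 hv).2
      have := Multiset.card_le_card (h1 T0 h0 hl)
      rw [Multiset.coe_card, List.length_cons] at this
      exact ⟨h1, by rw [List.length_cons]; omega⟩) (ix.flatMap fun _ => ix) []
    (fun _ _ _ => Multiset.zero_le _) (by
      have h1 : (PT V T0).card ≤ (T0.length + 1) * (T0.length + 1) :=
        (card_filter_le _ _).trans (by simp)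
      have h2 : T0.length + 1 ≤ ix.length := by omega
      simpa [DT] using h1.trans (Nat.mul_le_mul h2 h2))
  refine ⟨fun y hy => ?_, fun v hv h => ?_, fun T a1 a2 =>
    ⟨(cnt_map_le (h1 T a1 a2) _ _).trans (letters _ fun _ => List.length_tail),
      (cnt_map_le (h1 T a1 a2) _ _).trans (letters _ fun _ => List.length_dropLast)⟩⟩
  · obtain ⟨p, hp, rfl⟩ := Multiset.mem_map.1 (Multiset.mem_of_le (h1 T0 h0 hl) hy)
    have := mem_PT.1 hp
    exact ⟨this.2.2.2, seg_ne_nil this.2.1⟩
  · exact List.filter_eq_nil_iff.1 (List.map_eq_nil_iff.1 h2) v hv h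

end Vale.Agent.P333
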